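import Vale.Agent.P021.MathlibUsed

/-! P021, row (A): logarithms of the primes below 100 and of the `d` of the two schemes. -/

namespace Vale.Agent.P021.H159

open Real

theorem lg_2 : (0.6931471803 : ℝ) ≤ log 2 ∧ log 2 ≤ 0.6931471808 :=
  ⟨log_two_gt_d9.le, log_two_lt_d9.le⟩

theorem step_aux (x : ℝ) (h0 : 0 ≤ x) (h1 : x < 1) (n : ℕ) :
    2 * ∑ i ∈ Finset.range n, x ^ (2 * i + 1) / (2 * i + 1) ≤ log ((1 + x) / (1 - x)) ∧
      log ((1 + x) / (1 - x)) ≤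
        2 * ((∑ i ∈ Finset.range n, x ^ (2 * i + 1) / (2 * i + 1)) +
          x ^ (2 * n + 1) / (1 - x ^ 2)) := by
  have := sum_range_le_log_div h0 h1 n
  have := log_div_le_sum_range_add h0 h1 n
  constructor <;> linarith

theorem lg_3 : (1.0986122882 : ℝ) ≤ log 3 ∧ log 3 ≤ 1.0986122891 := by
  have h := step_aux (1 / 17) (by norm_num) (by norm_num) 4
  have e1 : ((1 : ℝ) + 1 / 17) / (1 - 1 / 17) = 3 ^ 2 / (2 ^ 3) := by norm_num
  have e2 : log ((3 : ℝ) ^ 2 / (2 ^ 3)) = 2 * log 3 - (3 * log 2) := by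
    rw [log_div (by norm_num) (by norm_num)]
    simp only [log_pow, Nat.cast_ofNat]
  rw [e1, e2] at h
  norm_num [Finset.sum_range_succ] at h
  obtain ⟨h1, h2⟩ := h
  have := lg_2
  constructor <;> linarith [lg_2.1, lg_2.2]

theorem lg_5 : (1.6094379118 : ℝ) ≤ log 5 ∧ log 5 ≤ 1.6094379131 := by
  have h := step_aux (1 / 49) (by norm_num) (by norm_num) 3
  have e1 : ((1 : ℝ) + 1 / 49) / (1 - 1 / 49) = 5 ^ 2 / (2 ^ 3 * 3) := by norm_num
  have e2 : log ((5 : ℝ) ^ 2 / (2 ^ 3 * 3)) = 2 * log 5 - (3 * log 2 + log 3) := by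
    rw [log_div (by norm_num) (by norm_num)]
    repeat rw [log_mul (by norm_num) (by norm_num)]
    simp only [log_pow, Nat.cast_ofNat]
  rw [e1, e2] at h
  norm_num [Finset.sum_range_succ] at h
  obtain ⟨h1, h2⟩ := h
  have := lg_2
  have := lg_3
  constructor <;> linarith [lg_2.1, lg_2.2, lg_3.1, lg_3.2]

theorem lg_7 : (1.9459101483 : ℝ) ≤ log 7 ∧ log 7 ≤ 1.9459101498 := by
  have h := step_aux (1 / 97) (by norm_num) (by norm_num) 3
  have e1 : ((1 : ℝ) + 1 / 97) / (1 - 1 / 97) = 7 ^ 2 / (2 ^ 4 * 3) := by norm_num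
  have e2 : log ((7 : ℝ) ^ 2 / (2 ^ 4 * 3)) = 2 * log 7 - (4 * log 2 + log 3) := by
    rw [log_div (by norm_num) (by norm_num)]
    repeat rw [log_mul (by norm_num) (by norm_num)]
    simp only [log_pow, Nat.cast_ofNat]
  rw [e1, e2] at h
  norm_num [Finset.sum_range_succ] at h
  obtain ⟨h1, h2⟩ := h
  have := lg_2
  have := lg_3
  constructor <;> linarith [lg_2.1, lg_2.2, lg_3.1, lg_3.2]

theorem lg_11 : (2.3978952718 : ℝ) ≤ log 11 ∧ log 11 ≤ 2.3978952738 := by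
  have h := step_aux (1 / 241) (by norm_num) (by norm_num) 2
  have e1 : ((1 : ℝ) + 1 / 241) / (1 - 1 / 241) = 11 ^ 2 / (2 ^ 3 * 3 * 5) := by norm_num
  have e2 : log ((11 : ℝ) ^ 2 / (2 ^ 3 * 3 * 5)) = 2 * log 11 - (3 * log 2 + log 3 + log 5) := by
    rw [log_div (by norm_num) (by norm_num)]
    repeat rw [log_mul (by norm_num) (by norm_num)]
    simp only [log_pow, Nat.cast_ofNat]
  rw [e1, e2] at h
  norm_num [Finset.sum_range_succ] at h
  obtain ⟨h1, h2⟩ := h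
  have := lg_2
  have := lg_3
  have := lg_5
  constructor <;> linarith [lg_2.1, lg_2.2, lg_3.1, lg_3.2, lg_5.1, lg_5.2]

theorem lg_13 : (2.5649493564 : ℝ) ≤ log 13 ∧ log 13 ≤ 2.5649493585 := by
  have h := step_aux (1 / 337) (by norm_num) (by norm_num) 2
  have e1 : ((1 : ℝ) + 1 / 337) / (1 - 1 / 337) = 13 ^ 2 / (2 ^ 3 * 3 * 7) := by norm_num
  have e2 : log ((13 : ℝ) ^ 2 / (2 ^ 3 * 3 * 7)) = 2 * log 13 - (3 * log 2 + log 3 + log 7) := by
    rw [log_div (by norm_num) (by norm_num)]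
    repeat rw [log_mul (by norm_num) (by norm_num)]
    simp only [log_pow, Nat.cast_ofNat]
  rw [e1, e2] at h
  norm_num [Finset.sum_range_succ] at h
  obtain ⟨h1, h2⟩ := h
  have := lg_2
  have := lg_3
  have := lg_7
  constructor <;> linarith [lg_2.1, lg_2.2, lg_3.1, lg_3.2, lg_7.1, lg_7.2]

theorem lg_17 : (2.8332133429 : ℝ) ≤ log 17 ∧ log 17 ≤ 2.8332133451 := by
  have h := step_aux (1 / 577) (by norm_num) (by norm_num) 2
  have e1 : ((1 : ℝ) + 1 / 577) / (1 - 1 / 577) = 17 ^ 2 / (2 ^ 5 * 3 ^ 2) := by norm_num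
  have e2 : log ((17 : ℝ) ^ 2 / (2 ^ 5 * 3 ^ 2)) = 2 * log 17 - (5 * log 2 + 2 * log 3) := by
    rw [log_div (by norm_num) (by norm_num)]
    repeat rw [log_mul (by norm_num) (by norm_num)]
    simp only [log_pow, Nat.cast_ofNat]
  rw [e1, e2] at h
  norm_num [Finset.sum_range_succ] at h
  obtain ⟨h1, h2⟩ := h
  have := lg_2
  have := lg_3
  constructor <;> linarith [lg_2.1, lg_2.2, lg_3.1, lg_3.2]

theorem lg_19 : (2.9444389779 : ℝ) ≤ log 19 ∧ log 19 ≤ 2.9444389803 := by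
  have h := step_aux (1 / 721) (by norm_num) (by norm_num) 2
  have e1 : ((1 : ℝ) + 1 / 721) / (1 - 1 / 721) = 19 ^ 2 / (2 ^ 3 * 3 ^ 2 * 5) := by norm_num
  have e2 : log ((19 : ℝ) ^ 2 / (2 ^ 3 * 3 ^ 2 * 5)) = 2 * log 19 - (3 * log 2 + 2 * log 3 + log 5) := by
    rw [log_div (by norm_num) (by norm_num)]
    repeat rw [log_mul (by norm_num) (by norm_num)]
    simp only [log_pow, Nat.cast_ofNat]
  rw [e1, e2] at h
  norm_num [Finset.sum_range_succ] at h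
  obtain ⟨h1, h2⟩ := h
  have := lg_2
  have := lg_3
  have := lg_5
  constructor <;> linarith [lg_2.1, lg_2.2, lg_3.1, lg_3.2, lg_5.1, lg_5.2]

theorem lg_23 : (3.1354942146 : ℝ) ≤ log 23 ∧ log 23 ≤ 3.1354942172 := by
  have h := step_aux (1 / 1057) (by norm_num) (by norm_num) 2
  have e1 : ((1 : ℝ) + 1 / 1057) / (1 - 1 / 1057) = 23 ^ 2 / (2 ^ 4 * 3 * 11) := by norm_num
  have e2 : log ((23 : ℝ) ^ 2 / (2 ^ 4 * 3 * 11)) = 2 * log 23 - (4 * log 2 + log 3 + log 11) := by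
    rw [log_div (by norm_num) (by norm_num)]
    repeat rw [log_mul (by norm_num) (by norm_num)]
    simp only [log_pow, Nat.cast_ofNat]
  rw [e1, e2] at h
  norm_num [Finset.sum_range_succ] at h
  obtain ⟨h1, h2⟩ := h
  have := lg_2
  have := lg_3
  have := lg_11
  constructor <;> linarith [lg_2.1, lg_2.2, lg_3.1, lg_3.2, lg_11.1, lg_11.2]

theorem lg_29 : (3.3672958286 : ℝ) ≤ log 29 ∧ log 29 ≤ 3.3672958313 := by
  have h := step_aux (1 / 1681) (by norm_num) (by norm_num) 2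
  have e1 : ((1 : ℝ) + 1 / 1681) / (1 - 1 / 1681) = 29 ^ 2 / (2 ^ 3 * 3 * 5 * 7) := by norm_num
  have e2 : log ((29 : ℝ) ^ 2 / (2 ^ 3 * 3 * 5 * 7)) = 2 * log 29 - (3 * log 2 + log 3 + log 5 + log 7) := by
    rw [log_div (by norm_num) (by norm_num)]
    repeat rw [log_mul (by norm_num) (by norm_num)]
    simp only [log_pow, Nat.cast_ofNat]
  rw [e1, e2] at h
  norm_num [Finset.sum_range_succ] at h
  obtain ⟨h1, h2⟩ := h
  have := lg_2
  have := lg_3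
  have := lg_5
  have := lg_7
  constructor <;> linarith [lg_2.1, lg_2.2, lg_3.1, lg_3.2, lg_5.1, lg_5.2, lg_7.1, lg_7.2]

theorem lg_31 : (3.4339872031 : ℝ) ≤ log 31 ∧ log 31 ≤ 3.4339872058 := by
  have h := step_aux (1 / 1921) (by norm_num) (by norm_num) 2
  have e1 : ((1 : ℝ) + 1 / 1921) / (1 - 1 / 1921) = 31 ^ 2 / (2 ^ 6 * 3 * 5) := by norm_num
  have e2 : log ((31 : ℝ) ^ 2 / (2 ^ 6 * 3 * 5)) = 2 * log 31 - (6 * log 2 + log 3 + log 5) := by
    rw [log_div (by norm_num) (by norm_num)]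
    repeat rw [log_mul (by norm_num) (by norm_num)]
    simp only [log_pow, Nat.cast_ofNat]
  rw [e1, e2] at h
  norm_num [Finset.sum_range_succ] at h
  obtain ⟨h1, h2⟩ := h
  have := lg_2
  have := lg_3
  have := lg_5
  constructor <;> linarith [lg_2.1, lg_2.2, lg_3.1, lg_3.2, lg_5.1, lg_5.2]

theorem lg_37 : (3.6109179111 : ℝ) ≤ log 37 ∧ log 37 ≤ 3.6109179141 := by
  have h := step_aux (1 / 2737) (by norm_num) (by norm_num) 2
  have e1 : ((1 : ℝ) + 1 / 2737) / (1 - 1 / 2737) = 37 ^ 2 / (2 ^ 3 * 3 ^ 2 * 19) := by norm_num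
  have e2 : log ((37 : ℝ) ^ 2 / (2 ^ 3 * 3 ^ 2 * 19)) = 2 * log 37 - (3 * log 2 + 2 * log 3 + log 19) := by
    rw [log_div (by norm_num) (by norm_num)]
    repeat rw [log_mul (by norm_num) (by norm_num)]
    simp only [log_pow, Nat.cast_ofNat]
  rw [e1, e2] at h
  norm_num [Finset.sum_range_succ] at h
  obtain ⟨h1, h2⟩ := h
  have := lg_2
  have := lg_3
  have := lg_19
  constructor <;> linarith [lg_2.1, lg_2.2, lg_3.1, lg_3.2, lg_19.1, lg_19.2]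

theorem lg_41 : (3.7135720652 : ℝ) ≤ log 41 ∧ log 41 ≤ 3.7135720682 := by
  have h := step_aux (1 / 3361) (by norm_num) (by norm_num) 2
  have e1 : ((1 : ℝ) + 1 / 3361) / (1 - 1 / 3361) = 41 ^ 2 / (2 ^ 4 * 3 * 5 * 7) := by norm_num
  have e2 : log ((41 : ℝ) ^ 2 / (2 ^ 4 * 3 * 5 * 7)) = 2 * log 41 - (4 * log 2 + log 3 + log 5 + log 7) := by
    rw [log_div (by norm_num) (by norm_num)]
    repeat rw [log_mul (by norm_num) (by norm_num)]
    simp only [log_pow, Nat.cast_ofNat]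
  rw [e1, e2] at h
  norm_num [Finset.sum_range_succ] at h
  obtain ⟨h1, h2⟩ := h
  have := lg_2
  have := lg_3
  have := lg_5
  have := lg_7
  constructor <;> linarith [lg_2.1, lg_2.2, lg_3.1, lg_3.2, lg_5.1, lg_5.2, lg_7.1, lg_7.2]

theorem lg_43 : (3.7612001141 : ℝ) ≤ log 43 ∧ log 43 ≤ 3.7612001172 := by
  have h := step_aux (1 / 3697) (by norm_num) (by norm_num) 2
  have e1 : ((1 : ℝ) + 1 / 3697) / (1 - 1 / 3697) = 43 ^ 2 / (2 ^ 3 * 3 * 7 * 11) := by norm_num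
  have e2 : log ((43 : ℝ) ^ 2 / (2 ^ 3 * 3 * 7 * 11)) = 2 * log 43 - (3 * log 2 + log 3 + log 7 + log 11) := by
    rw [log_div (by norm_num) (by norm_num)]
    repeat rw [log_mul (by norm_num) (by norm_num)]
    simp only [log_pow, Nat.cast_ofNat]
  rw [e1, e2] at h
  norm_num [Finset.sum_range_succ] at h
  obtain ⟨h1, h2⟩ := h
  have := lg_2
  have := lg_3
  have := lg_7
  have := lg_11
  constructor <;> linarith [lg_2.1, lg_2.2, lg_3.1, lg_3.2, lg_7.1, lg_7.2, lg_11.1, lg_11.2]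

theorem lg_47 : (3.8501476001 : ℝ) ≤ log 47 ∧ log 47 ≤ 3.8501476032 := by
  have h := step_aux (1 / 4417) (by norm_num) (by norm_num) 2
  have e1 : ((1 : ℝ) + 1 / 4417) / (1 - 1 / 4417) = 47 ^ 2 / (2 ^ 5 * 3 * 23) := by norm_num
  have e2 : log ((47 : ℝ) ^ 2 / (2 ^ 5 * 3 * 23)) = 2 * log 47 - (5 * log 2 + log 3 + log 23) := by
    rw [log_div (by norm_num) (by norm_num)]
    repeat rw [log_mul (by norm_num) (by norm_num)]
    simp only [log_pow, Nat.cast_ofNat]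
  rw [e1, e2] at h
  norm_num [Finset.sum_range_succ] at h
  obtain ⟨h1, h2⟩ := h
  have := lg_2
  have := lg_3
  have := lg_23
  constructor <;> linarith [lg_2.1, lg_2.2, lg_3.1, lg_3.2, lg_23.1, lg_23.2]

theorem lg_53 : (3.9702919119 : ℝ) ≤ log 53 ∧ log 53 ≤ 3.9702919151 := by
  have h := step_aux (1 / 5617) (by norm_num) (by norm_num) 2
  have e1 : ((1 : ℝ) + 1 / 5617) / (1 - 1 / 5617) = 53 ^ 2 / (2 ^ 3 * 3 ^ 3 * 13) := by norm_num
  have e2 : log ((53 : ℝ) ^ 2 / (2 ^ 3 * 3 ^ 3 * 13)) = 2 * log 53 - (3 * log 2 + 3 * log 3 + log 13) := by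
    rw [log_div (by norm_num) (by norm_num)]
    repeat rw [log_mul (by norm_num) (by norm_num)]
    simp only [log_pow, Nat.cast_ofNat]
  rw [e1, e2] at h
  norm_num [Finset.sum_range_succ] at h
  obtain ⟨h1, h2⟩ := h
  have := lg_2
  have := lg_3
  have := lg_13
  constructor <;> linarith [lg_2.1, lg_2.2, lg_3.1, lg_3.2, lg_13.1, lg_13.2]

theorem lg_59 : (4.0775374422 : ℝ) ≤ log 59 ∧ log 59 ≤ 4.0775374455 := by
  have h := step_aux (1 / 6961) (by norm_num) (by norm_num) 2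
  have e1 : ((1 : ℝ) + 1 / 6961) / (1 - 1 / 6961) = 59 ^ 2 / (2 ^ 3 * 3 * 5 * 29) := by norm_num
  have e2 : log ((59 : ℝ) ^ 2 / (2 ^ 3 * 3 * 5 * 29)) = 2 * log 59 - (3 * log 2 + log 3 + log 5 + log 29) := by
    rw [log_div (by norm_num) (by norm_num)]
    repeat rw [log_mul (by norm_num) (by norm_num)]
    simp only [log_pow, Nat.cast_ofNat]
  rw [e1, e2] at h
  norm_num [Finset.sum_range_succ] at h
  obtain ⟨h1, h2⟩ := h
  have := lg_2
  have := lg_3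
  have := lg_5
  have := lg_29
  constructor <;> linarith [lg_2.1, lg_2.2, lg_3.1, lg_3.2, lg_5.1, lg_5.2, lg_29.1, lg_29.2]

theorem lg_61 : (4.1108738625 : ℝ) ≤ log 61 ∧ log 61 ≤ 4.1108738658 := by
  have h := step_aux (1 / 7441) (by norm_num) (by norm_num) 2
  have e1 : ((1 : ℝ) + 1 / 7441) / (1 - 1 / 7441) = 61 ^ 2 / (2 ^ 3 * 3 * 5 * 31) := by norm_num
  have e2 : log ((61 : ℝ) ^ 2 / (2 ^ 3 * 3 * 5 * 31)) = 2 * log 61 - (3 * log 2 + log 3 + log 5 + log 31) := by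
    rw [log_div (by norm_num) (by norm_num)]
    repeat rw [log_mul (by norm_num) (by norm_num)]
    simp only [log_pow, Nat.cast_ofNat]
  rw [e1, e2] at h
  norm_num [Finset.sum_range_succ] at h
  obtain ⟨h1, h2⟩ := h
  have := lg_2
  have := lg_3
  have := lg_5
  have := lg_31
  constructor <;> linarith [lg_2.1, lg_2.2, lg_3.1, lg_3.2, lg_5.1, lg_5.2, lg_31.1, lg_31.2]

theorem lg_67 : (4.2046926176 : ℝ) ≤ log 67 ∧ log 67 ≤ 4.2046926210 := by
  have h := step_aux (1 / 8977) (by norm_num) (by norm_num) 2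
  have e1 : ((1 : ℝ) + 1 / 8977) / (1 - 1 / 8977) = 67 ^ 2 / (2 ^ 3 * 3 * 11 * 17) := by norm_num
  have e2 : log ((67 : ℝ) ^ 2 / (2 ^ 3 * 3 * 11 * 17)) = 2 * log 67 - (3 * log 2 + log 3 + log 11 + log 17) := by
    rw [log_div (by norm_num) (by norm_num)]
    repeat rw [log_mul (by norm_num) (by norm_num)]
    simp only [log_pow, Nat.cast_ofNat]
  rw [e1, e2] at h
  norm_num [Finset.sum_range_succ] at h
  obtain ⟨h1, h2⟩ := h
  have := lg_2
  have := lg_3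
  have := lg_11
  have := lg_17
  constructor <;> linarith [lg_2.1, lg_2.2, lg_3.1, lg_3.2, lg_11.1, lg_11.2, lg_17.1, lg_17.2]

theorem lg_71 : (4.2626798753 : ℝ) ≤ log 71 ∧ log 71 ≤ 4.2626798787 := by
  have h := step_aux (1 / 10081) (by norm_num) (by norm_num) 2
  have e1 : ((1 : ℝ) + 1 / 10081) / (1 - 1 / 10081) = 71 ^ 2 / (2 ^ 4 * 3 ^ 2 * 5 * 7) := by norm_num
  have e2 : log ((71 : ℝ) ^ 2 / (2 ^ 4 * 3 ^ 2 * 5 * 7)) = 2 * log 71 - (4 * log 2 + 2 * log 3 + log 5 + log 7) := by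
    rw [log_div (by norm_num) (by norm_num)]
    repeat rw [log_mul (by norm_num) (by norm_num)]
    simp only [log_pow, Nat.cast_ofNat]
  rw [e1, e2] at h
  norm_num [Finset.sum_range_succ] at h
  obtain ⟨h1, h2⟩ := h
  have := lg_2
  have := lg_3
  have := lg_5
  have := lg_7
  constructor <;> linarith [lg_2.1, lg_2.2, lg_3.1, lg_3.2, lg_5.1, lg_5.2, lg_7.1, lg_7.2]

theorem lg_73 : (4.2904594393 : ℝ) ≤ log 73 ∧ log 73 ≤ 4.2904594428 := by
  have h := step_aux (1 / 10657) (by norm_num) (by norm_num) 2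
  have e1 : ((1 : ℝ) + 1 / 10657) / (1 - 1 / 10657) = 73 ^ 2 / (2 ^ 4 * 3 ^ 2 * 37) := by norm_num
  have e2 : log ((73 : ℝ) ^ 2 / (2 ^ 4 * 3 ^ 2 * 37)) = 2 * log 73 - (4 * log 2 + 2 * log 3 + log 37) := by
    rw [log_div (by norm_num) (by norm_num)]
    repeat rw [log_mul (by norm_num) (by norm_num)]
    simp only [log_pow, Nat.cast_ofNat]
  rw [e1, e2] at h
  norm_num [Finset.sum_range_succ] at h
  obtain ⟨h1, h2⟩ := h
  have := lg_2
  have := lg_3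
  have := lg_37
  constructor <;> linarith [lg_2.1, lg_2.2, lg_3.1, lg_3.2, lg_37.1, lg_37.2]

theorem lg_79 : (4.3694478507 : ℝ) ≤ log 79 ∧ log 79 ≤ 4.3694478542 := by
  have h := step_aux (1 / 12481) (by norm_num) (by norm_num) 2
  have e1 : ((1 : ℝ) + 1 / 12481) / (1 - 1 / 12481) = 79 ^ 2 / (2 ^ 5 * 3 * 5 * 13) := by norm_num
  have e2 : log ((79 : ℝ) ^ 2 / (2 ^ 5 * 3 * 5 * 13)) = 2 * log 79 - (5 * log 2 + log 3 + log 5 + log 13) := by
    rw [log_div (by norm_num) (by norm_num)]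
    repeat rw [log_mul (by norm_num) (by norm_num)]
    simp only [log_pow, Nat.cast_ofNat]
  rw [e1, e2] at h
  norm_num [Finset.sum_range_succ] at h
  obtain ⟨h1, h2⟩ := h
  have := lg_2
  have := lg_3
  have := lg_5
  have := lg_13
  constructor <;> linarith [lg_2.1, lg_2.2, lg_3.1, lg_3.2, lg_5.1, lg_5.2, lg_13.1, lg_13.2]

theorem lg_83 : (4.4188406060 : ℝ) ≤ log 83 ∧ log 83 ≤ 4.4188406095 := by
  have h := step_aux (1 / 13777) (by norm_num) (by norm_num) 2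
  have e1 : ((1 : ℝ) + 1 / 13777) / (1 - 1 / 13777) = 83 ^ 2 / (2 ^ 3 * 3 * 7 * 41) := by norm_num
  have e2 : log ((83 : ℝ) ^ 2 / (2 ^ 3 * 3 * 7 * 41)) = 2 * log 83 - (3 * log 2 + log 3 + log 7 + log 41) := by
    rw [log_div (by norm_num) (by norm_num)]
    repeat rw [log_mul (by norm_num) (by norm_num)]
    simp only [log_pow, Nat.cast_ofNat]
  rw [e1, e2] at h
  norm_num [Finset.sum_range_succ] at h
  obtain ⟨h1, h2⟩ := h
  have := lg_2
  have := lg_3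
  have := lg_7
  have := lg_41
  constructor <;> linarith [lg_2.1, lg_2.2, lg_3.1, lg_3.2, lg_7.1, lg_7.2, lg_41.1, lg_41.2]

theorem lg_89 : (4.4886363679 : ℝ) ≤ log 89 ∧ log 89 ≤ 4.4886363715 := by
  have h := step_aux (1 / 15841) (by norm_num) (by norm_num) 2
  have e1 : ((1 : ℝ) + 1 / 15841) / (1 - 1 / 15841) = 89 ^ 2 / (2 ^ 4 * 3 ^ 2 * 5 * 11) := by norm_num
  have e2 : log ((89 : ℝ) ^ 2 / (2 ^ 4 * 3 ^ 2 * 5 * 11)) = 2 * log 89 - (4 * log 2 + 2 * log 3 + log 5 + log 11) := by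
    rw [log_div (by norm_num) (by norm_num)]
    repeat rw [log_mul (by norm_num) (by norm_num)]
    simp only [log_pow, Nat.cast_ofNat]
  rw [e1, e2] at h
  norm_num [Finset.sum_range_succ] at h
  obtain ⟨h1, h2⟩ := h
  have := lg_2
  have := lg_3
  have := lg_5
  have := lg_11
  constructor <;> linarith [lg_2.1, lg_2.2, lg_3.1, lg_3.2, lg_5.1, lg_5.2, lg_11.1, lg_11.2]

theorem lg_97 : (4.5747109767 : ℝ) ≤ log 97 ∧ log 97 ≤ 4.5747109802 := by
  have h := step_aux (1 / 18817) (by norm_num) (by norm_num) 2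
  have e1 : ((1 : ℝ) + 1 / 18817) / (1 - 1 / 18817) = 97 ^ 2 / (2 ^ 6 * 3 * 7 ^ 2) := by norm_num
  have e2 : log ((97 : ℝ) ^ 2 / (2 ^ 6 * 3 * 7 ^ 2)) = 2 * log 97 - (6 * log 2 + log 3 + 2 * log 7) := by
    rw [log_div (by norm_num) (by norm_num)]
    repeat rw [log_mul (by norm_num) (by norm_num)]
    simp only [log_pow, Nat.cast_ofNat]
  rw [e1, e2] at h
  norm_num [Finset.sum_range_succ] at h
  obtain ⟨h1, h2⟩ := h
  have := lg_2
  have := lg_3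
  have := lg_7
  constructor <;> linarith [lg_2.1, lg_2.2, lg_3.1, lg_3.2, lg_7.1, lg_7.2]

def lgl : List (ℕ × ℤ) :=
  [
    (1, 0), (2, 693147181), (3, 1098612289), (5, 1609437912), (6, 1791759469), (7, 1945910149),
    (10, 2302585093), (11, 2397895273), (13, 2564949357), (14, 2639057330), (15, 2708050201),
    (17, 2833213344), (19, 2944438979), (21, 3044522438), (22, 3091042453), (23, 3135494216),
    (26, 3258096538), (29, 3367295830), (30, 3401197382), (31, 3433987204), (33, 3496507561),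
    (34, 3526360525), (35, 3555348062), (37, 3610917913), (38, 3637586160), (39, 3663561646),
    (41, 3713572067), (42, 3737669618), (43, 3761200116), (46, 3828641396), (47, 3850147602),
    (51, 3931825633), (53, 3970291914), (55, 4007333185), (57, 4043051268), (58, 4060443010),
    (59, 4077537444), (61, 4110873864), (62, 4127134385), (65, 4174387270), (66, 4189654742),
    (67, 4204692619), (69, 4234106505), (70, 4248495242), (71, 4262679877), (73, 4290459441),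
    (74, 4304065093), (77, 4343805422), (78, 4356708827), (79, 4369447852), (82, 4406719247),
    (83, 4418840608), (85, 4442651256), (86, 4454347296), (87, 4465908119), (89, 4488636370),
    (91, 4510859506), (93, 4532599493), (94, 4543294782), (95, 4553876892), (97, 4574710978)]

theorem tl_1 : |log ((1 : ℕ) : ℝ) - ((0 : ℤ) : ℝ) / 10 ^ 9| ≤ 1 / 10 ^ 8 := by norm_num

theorem tl_2 : |log ((2 : ℕ) : ℝ) - ((693147181 : ℤ) : ℝ) / 10 ^ 9| ≤ 1 / 10 ^ 8 := by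
  have := lg_2
  rw [abs_le]; push_cast; constructor <;> linarith [lg_2.1, lg_2.2]

theorem tl_3 : |log ((3 : ℕ) : ℝ) - ((1098612289 : ℤ) : ℝ) / 10 ^ 9| ≤ 1 / 10 ^ 8 := by
  have := lg_3
  rw [abs_le]; push_cast; constructor <;> linarith [lg_3.1, lg_3.2]

theorem tl_5 : |log ((5 : ℕ) : ℝ) - ((1609437912 : ℤ) : ℝ) / 10 ^ 9| ≤ 1 / 10 ^ 8 := by
  have := lg_5
  rw [abs_le]; push_cast; constructor <;> linarith [lg_5.1, lg_5.2]

theorem tl_6 : |log ((6 : ℕ) : ℝ) - ((1791759469 : ℤ) : ℝ) / 10 ^ 9| ≤ 1 / 10 ^ 8 := by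
  have e : log (((6 : ℕ) : ℝ)) = log 2 + log 3 := by
    rw [show (((6 : ℕ) : ℝ)) = 2 * 3 by norm_num]
    repeat rw [log_mul (by norm_num) (by norm_num)]
  rw [e, abs_le]; push_cast; constructor <;> linarith [lg_2.1, lg_2.2, lg_3.1, lg_3.2]

theorem tl_7 : |log ((7 : ℕ) : ℝ) - ((1945910149 : ℤ) : ℝ) / 10 ^ 9| ≤ 1 / 10 ^ 8 := by
  have := lg_7
  rw [abs_le]; push_cast; constructor <;> linarith [lg_7.1, lg_7.2]

theorem tl_10 : |log ((10 : ℕ) : ℝ) - ((2302585093 : ℤ) : ℝ) / 10 ^ 9| ≤ 1 / 10 ^ 8 := by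
  have e : log (((10 : ℕ) : ℝ)) = log 2 + log 5 := by
    rw [show (((10 : ℕ) : ℝ)) = 2 * 5 by norm_num]
    repeat rw [log_mul (by norm_num) (by norm_num)]
  rw [e, abs_le]; push_cast; constructor <;> linarith [lg_2.1, lg_2.2, lg_5.1, lg_5.2]

theorem tl_11 : |log ((11 : ℕ) : ℝ) - ((2397895273 : ℤ) : ℝ) / 10 ^ 9| ≤ 1 / 10 ^ 8 := by
  have := lg_11
  rw [abs_le]; push_cast; constructor <;> linarith [lg_11.1, lg_11.2]

theorem tl_13 : |log ((13 : ℕ) : ℝ) - ((2564949357 : ℤ) : ℝ) / 10 ^ 9| ≤ 1 / 10 ^ 8 := by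
  have := lg_13
  rw [abs_le]; push_cast; constructor <;> linarith [lg_13.1, lg_13.2]

theorem tl_14 : |log ((14 : ℕ) : ℝ) - ((2639057330 : ℤ) : ℝ) / 10 ^ 9| ≤ 1 / 10 ^ 8 := by
  have e : log (((14 : ℕ) : ℝ)) = log 2 + log 7 := by
    rw [show (((14 : ℕ) : ℝ)) = 2 * 7 by norm_num]
    repeat rw [log_mul (by norm_num) (by norm_num)]
  rw [e, abs_le]; push_cast; constructor <;> linarith [lg_2.1, lg_2.2, lg_7.1, lg_7.2]

theorem tl_15 : |log ((15 : ℕ) : ℝ) - ((2708050201 : ℤ) : ℝ) / 10 ^ 9| ≤ 1 / 10 ^ 8 := by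
  have e : log (((15 : ℕ) : ℝ)) = log 3 + log 5 := by
    rw [show (((15 : ℕ) : ℝ)) = 3 * 5 by norm_num]
    repeat rw [log_mul (by norm_num) (by norm_num)]
  rw [e, abs_le]; push_cast; constructor <;> linarith [lg_3.1, lg_3.2, lg_5.1, lg_5.2]

theorem tl_17 : |log ((17 : ℕ) : ℝ) - ((2833213344 : ℤ) : ℝ) / 10 ^ 9| ≤ 1 / 10 ^ 8 := by
  have := lg_17
  rw [abs_le]; push_cast; constructor <;> linarith [lg_17.1, lg_17.2]

theorem tl_19 : |log ((19 : ℕ) : ℝ) - ((2944438979 : ℤ) : ℝ) / 10 ^ 9| ≤ 1 / 10 ^ 8 := by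
  have := lg_19
  rw [abs_le]; push_cast; constructor <;> linarith [lg_19.1, lg_19.2]

theorem tl_21 : |log ((21 : ℕ) : ℝ) - ((3044522438 : ℤ) : ℝ) / 10 ^ 9| ≤ 1 / 10 ^ 8 := by
  have e : log (((21 : ℕ) : ℝ)) = log 3 + log 7 := by
    rw [show (((21 : ℕ) : ℝ)) = 3 * 7 by norm_num]
    repeat rw [log_mul (by norm_num) (by norm_num)]
  rw [e, abs_le]; push_cast; constructor <;> linarith [lg_3.1, lg_3.2, lg_7.1, lg_7.2]

theorem tl_22 : |log ((22 : ℕ) : ℝ) - ((3091042453 : ℤ) : ℝ) / 10 ^ 9| ≤ 1 / 10 ^ 8 := by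
  have e : log (((22 : ℕ) : ℝ)) = log 2 + log 11 := by
    rw [show (((22 : ℕ) : ℝ)) = 2 * 11 by norm_num]
    repeat rw [log_mul (by norm_num) (by norm_num)]
  rw [e, abs_le]; push_cast; constructor <;> linarith [lg_2.1, lg_2.2, lg_11.1, lg_11.2]

theorem tl_23 : |log ((23 : ℕ) : ℝ) - ((3135494216 : ℤ) : ℝ) / 10 ^ 9| ≤ 1 / 10 ^ 8 := by
  have := lg_23
  rw [abs_le]; push_cast; constructor <;> linarith [lg_23.1, lg_23.2]

theorem tl_26 : |log ((26 : ℕ) : ℝ) - ((3258096538 : ℤ) : ℝ) / 10 ^ 9| ≤ 1 / 10 ^ 8 := by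
  have e : log (((26 : ℕ) : ℝ)) = log 2 + log 13 := by
    rw [show (((26 : ℕ) : ℝ)) = 2 * 13 by norm_num]
    repeat rw [log_mul (by norm_num) (by norm_num)]
  rw [e, abs_le]; push_cast; constructor <;> linarith [lg_2.1, lg_2.2, lg_13.1, lg_13.2]

theorem tl_29 : |log ((29 : ℕ) : ℝ) - ((3367295830 : ℤ) : ℝ) / 10 ^ 9| ≤ 1 / 10 ^ 8 := by
  have := lg_29
  rw [abs_le]; push_cast; constructor <;> linarith [lg_29.1, lg_29.2]

theorem tl_30 : |log ((30 : ℕ) : ℝ) - ((3401197382 : ℤ) : ℝ) / 10 ^ 9| ≤ 1 / 10 ^ 8 := by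
  have e : log (((30 : ℕ) : ℝ)) = log 2 + log 3 + log 5 := by
    rw [show (((30 : ℕ) : ℝ)) = 2 * 3 * 5 by norm_num]
    repeat rw [log_mul (by norm_num) (by norm_num)]
  rw [e, abs_le]; push_cast; constructor <;> linarith [lg_2.1, lg_2.2, lg_3.1, lg_3.2, lg_5.1, lg_5.2]

theorem tl_31 : |log ((31 : ℕ) : ℝ) - ((3433987204 : ℤ) : ℝ) / 10 ^ 9| ≤ 1 / 10 ^ 8 := by
  have := lg_31
  rw [abs_le]; push_cast; constructor <;> linarith [lg_31.1, lg_31.2]

theorem tl_33 : |log ((33 : ℕ) : ℝ) - ((3496507561 : ℤ) : ℝ) / 10 ^ 9| ≤ 1 / 10 ^ 8 := by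
  have e : log (((33 : ℕ) : ℝ)) = log 3 + log 11 := by
    rw [show (((33 : ℕ) : ℝ)) = 3 * 11 by norm_num]
    repeat rw [log_mul (by norm_num) (by norm_num)]
  rw [e, abs_le]; push_cast; constructor <;> linarith [lg_3.1, lg_3.2, lg_11.1, lg_11.2]

theorem tl_34 : |log ((34 : ℕ) : ℝ) - ((3526360525 : ℤ) : ℝ) / 10 ^ 9| ≤ 1 / 10 ^ 8 := by
  have e : log (((34 : ℕ) : ℝ)) = log 2 + log 17 := by
    rw [show (((34 : ℕ) : ℝ)) = 2 * 17 by norm_num]
    repeat rw [log_mul (by norm_num) (by norm_num)]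
  rw [e, abs_le]; push_cast; constructor <;> linarith [lg_2.1, lg_2.2, lg_17.1, lg_17.2]

theorem tl_35 : |log ((35 : ℕ) : ℝ) - ((3555348062 : ℤ) : ℝ) / 10 ^ 9| ≤ 1 / 10 ^ 8 := by
  have e : log (((35 : ℕ) : ℝ)) = log 5 + log 7 := by
    rw [show (((35 : ℕ) : ℝ)) = 5 * 7 by norm_num]
    repeat rw [log_mul (by norm_num) (by norm_num)]
  rw [e, abs_le]; push_cast; constructor <;> linarith [lg_5.1, lg_5.2, lg_7.1, lg_7.2]

theorem tl_37 : |log ((37 : ℕ) : ℝ) - ((3610917913 : ℤ) : ℝ) / 10 ^ 9| ≤ 1 / 10 ^ 8 := by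
  have := lg_37
  rw [abs_le]; push_cast; constructor <;> linarith [lg_37.1, lg_37.2]

theorem tl_38 : |log ((38 : ℕ) : ℝ) - ((3637586160 : ℤ) : ℝ) / 10 ^ 9| ≤ 1 / 10 ^ 8 := by
  have e : log (((38 : ℕ) : ℝ)) = log 2 + log 19 := by
    rw [show (((38 : ℕ) : ℝ)) = 2 * 19 by norm_num]
    repeat rw [log_mul (by norm_num) (by norm_num)]
  rw [e, abs_le]; push_cast; constructor <;> linarith [lg_2.1, lg_2.2, lg_19.1, lg_19.2]

theorem tl_39 : |log ((39 : ℕ) : ℝ) - ((3663561646 : ℤ) : ℝ) / 10 ^ 9| ≤ 1 / 10 ^ 8 := by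
  have e : log (((39 : ℕ) : ℝ)) = log 3 + log 13 := by
    rw [show (((39 : ℕ) : ℝ)) = 3 * 13 by norm_num]
    repeat rw [log_mul (by norm_num) (by norm_num)]
  rw [e, abs_le]; push_cast; constructor <;> linarith [lg_3.1, lg_3.2, lg_13.1, lg_13.2]

theorem tl_41 : |log ((41 : ℕ) : ℝ) - ((3713572067 : ℤ) : ℝ) / 10 ^ 9| ≤ 1 / 10 ^ 8 := by
  have := lg_41
  rw [abs_le]; push_cast; constructor <;> linarith [lg_41.1, lg_41.2]

theorem tl_42 : |log ((42 : ℕ) : ℝ) - ((3737669618 : ℤ) : ℝ) / 10 ^ 9| ≤ 1 / 10 ^ 8 := by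
  have e : log (((42 : ℕ) : ℝ)) = log 2 + log 3 + log 7 := by
    rw [show (((42 : ℕ) : ℝ)) = 2 * 3 * 7 by norm_num]
    repeat rw [log_mul (by norm_num) (by norm_num)]
  rw [e, abs_le]; push_cast; constructor <;> linarith [lg_2.1, lg_2.2, lg_3.1, lg_3.2, lg_7.1, lg_7.2]

theorem tl_43 : |log ((43 : ℕ) : ℝ) - ((3761200116 : ℤ) : ℝ) / 10 ^ 9| ≤ 1 / 10 ^ 8 := by
  have := lg_43
  rw [abs_le]; push_cast; constructor <;> linarith [lg_43.1, lg_43.2]

theorem tl_46 : |log ((46 : ℕ) : ℝ) - ((3828641396 : ℤ) : ℝ) / 10 ^ 9| ≤ 1 / 10 ^ 8 := by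
  have e : log (((46 : ℕ) : ℝ)) = log 2 + log 23 := by
    rw [show (((46 : ℕ) : ℝ)) = 2 * 23 by norm_num]
    repeat rw [log_mul (by norm_num) (by norm_num)]
  rw [e, abs_le]; push_cast; constructor <;> linarith [lg_2.1, lg_2.2, lg_23.1, lg_23.2]

theorem tl_47 : |log ((47 : ℕ) : ℝ) - ((3850147602 : ℤ) : ℝ) / 10 ^ 9| ≤ 1 / 10 ^ 8 := by
  have := lg_47
  rw [abs_le]; push_cast; constructor <;> linarith [lg_47.1, lg_47.2]

theorem tl_51 : |log ((51 : ℕ) : ℝ) - ((3931825633 : ℤ) : ℝ) / 10 ^ 9| ≤ 1 / 10 ^ 8 := by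
  have e : log (((51 : ℕ) : ℝ)) = log 3 + log 17 := by
    rw [show (((51 : ℕ) : ℝ)) = 3 * 17 by norm_num]
    repeat rw [log_mul (by norm_num) (by norm_num)]
  rw [e, abs_le]; push_cast; constructor <;> linarith [lg_3.1, lg_3.2, lg_17.1, lg_17.2]

theorem tl_53 : |log ((53 : ℕ) : ℝ) - ((3970291914 : ℤ) : ℝ) / 10 ^ 9| ≤ 1 / 10 ^ 8 := by
  have := lg_53
  rw [abs_le]; push_cast; constructor <;> linarith [lg_53.1, lg_53.2]

theorem tl_55 : |log ((55 : ℕ) : ℝ) - ((4007333185 : ℤ) : ℝ) / 10 ^ 9| ≤ 1 / 10 ^ 8 := by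
  have e : log (((55 : ℕ) : ℝ)) = log 5 + log 11 := by
    rw [show (((55 : ℕ) : ℝ)) = 5 * 11 by norm_num]
    repeat rw [log_mul (by norm_num) (by norm_num)]
  rw [e, abs_le]; push_cast; constructor <;> linarith [lg_5.1, lg_5.2, lg_11.1, lg_11.2]

theorem tl_57 : |log ((57 : ℕ) : ℝ) - ((4043051268 : ℤ) : ℝ) / 10 ^ 9| ≤ 1 / 10 ^ 8 := by
  have e : log (((57 : ℕ) : ℝ)) = log 3 + log 19 := by
    rw [show (((57 : ℕ) : ℝ)) = 3 * 19 by norm_num]
    repeat rw [log_mul (by norm_num) (by norm_num)]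
  rw [e, abs_le]; push_cast; constructor <;> linarith [lg_3.1, lg_3.2, lg_19.1, lg_19.2]

theorem tl_58 : |log ((58 : ℕ) : ℝ) - ((4060443010 : ℤ) : ℝ) / 10 ^ 9| ≤ 1 / 10 ^ 8 := by
  have e : log (((58 : ℕ) : ℝ)) = log 2 + log 29 := by
    rw [show (((58 : ℕ) : ℝ)) = 2 * 29 by norm_num]
    repeat rw [log_mul (by norm_num) (by norm_num)]
  rw [e, abs_le]; push_cast; constructor <;> linarith [lg_2.1, lg_2.2, lg_29.1, lg_29.2]

theorem tl_59 : |log ((59 : ℕ) : ℝ) - ((4077537444 : ℤ) : ℝ) / 10 ^ 9| ≤ 1 / 10 ^ 8 := by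
  have := lg_59
  rw [abs_le]; push_cast; constructor <;> linarith [lg_59.1, lg_59.2]

theorem tl_61 : |log ((61 : ℕ) : ℝ) - ((4110873864 : ℤ) : ℝ) / 10 ^ 9| ≤ 1 / 10 ^ 8 := by
  have := lg_61
  rw [abs_le]; push_cast; constructor <;> linarith [lg_61.1, lg_61.2]

theorem tl_62 : |log ((62 : ℕ) : ℝ) - ((4127134385 : ℤ) : ℝ) / 10 ^ 9| ≤ 1 / 10 ^ 8 := by
  have e : log (((62 : ℕ) : ℝ)) = log 2 + log 31 := by
    rw [show (((62 : ℕ) : ℝ)) = 2 * 31 by norm_num]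
    repeat rw [log_mul (by norm_num) (by norm_num)]
  rw [e, abs_le]; push_cast; constructor <;> linarith [lg_2.1, lg_2.2, lg_31.1, lg_31.2]

theorem tl_65 : |log ((65 : ℕ) : ℝ) - ((4174387270 : ℤ) : ℝ) / 10 ^ 9| ≤ 1 / 10 ^ 8 := by
  have e : log (((65 : ℕ) : ℝ)) = log 5 + log 13 := by
    rw [show (((65 : ℕ) : ℝ)) = 5 * 13 by norm_num]
    repeat rw [log_mul (by norm_num) (by norm_num)]
  rw [e, abs_le]; push_cast; constructor <;> linarith [lg_5.1, lg_5.2, lg_13.1, lg_13.2]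

theorem tl_66 : |log ((66 : ℕ) : ℝ) - ((4189654742 : ℤ) : ℝ) / 10 ^ 9| ≤ 1 / 10 ^ 8 := by
  have e : log (((66 : ℕ) : ℝ)) = log 2 + log 3 + log 11 := by
    rw [show (((66 : ℕ) : ℝ)) = 2 * 3 * 11 by norm_num]
    repeat rw [log_mul (by norm_num) (by norm_num)]
  rw [e, abs_le]; push_cast; constructor <;> linarith [lg_2.1, lg_2.2, lg_3.1, lg_3.2, lg_11.1, lg_11.2]

theorem tl_67 : |log ((67 : ℕ) : ℝ) - ((4204692619 : ℤ) : ℝ) / 10 ^ 9| ≤ 1 / 10 ^ 8 := by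
  have := lg_67
  rw [abs_le]; push_cast; constructor <;> linarith [lg_67.1, lg_67.2]

theorem tl_69 : |log ((69 : ℕ) : ℝ) - ((4234106505 : ℤ) : ℝ) / 10 ^ 9| ≤ 1 / 10 ^ 8 := by
  have e : log (((69 : ℕ) : ℝ)) = log 3 + log 23 := by
    rw [show (((69 : ℕ) : ℝ)) = 3 * 23 by norm_num]
    repeat rw [log_mul (by norm_num) (by norm_num)]
  rw [e, abs_le]; push_cast; constructor <;> linarith [lg_3.1, lg_3.2, lg_23.1, lg_23.2]

theorem tl_70 : |log ((70 : ℕ) : ℝ) - ((4248495242 : ℤ) : ℝ) / 10 ^ 9| ≤ 1 / 10 ^ 8 := by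
  have e : log (((70 : ℕ) : ℝ)) = log 2 + log 5 + log 7 := by
    rw [show (((70 : ℕ) : ℝ)) = 2 * 5 * 7 by norm_num]
    repeat rw [log_mul (by norm_num) (by norm_num)]
  rw [e, abs_le]; push_cast; constructor <;> linarith [lg_2.1, lg_2.2, lg_5.1, lg_5.2, lg_7.1, lg_7.2]

theorem tl_71 : |log ((71 : ℕ) : ℝ) - ((4262679877 : ℤ) : ℝ) / 10 ^ 9| ≤ 1 / 10 ^ 8 := by
  have := lg_71
  rw [abs_le]; push_cast; constructor <;> linarith [lg_71.1, lg_71.2]

theorem tl_73 : |log ((73 : ℕ) : ℝ) - ((4290459441 : ℤ) : ℝ) / 10 ^ 9| ≤ 1 / 10 ^ 8 := by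
  have := lg_73
  rw [abs_le]; push_cast; constructor <;> linarith [lg_73.1, lg_73.2]

theorem tl_74 : |log ((74 : ℕ) : ℝ) - ((4304065093 : ℤ) : ℝ) / 10 ^ 9| ≤ 1 / 10 ^ 8 := by
  have e : log (((74 : ℕ) : ℝ)) = log 2 + log 37 := by
    rw [show (((74 : ℕ) : ℝ)) = 2 * 37 by norm_num]
    repeat rw [log_mul (by norm_num) (by norm_num)]
  rw [e, abs_le]; push_cast; constructor <;> linarith [lg_2.1, lg_2.2, lg_37.1, lg_37.2]

theorem tl_77 : |log ((77 : ℕ) : ℝ) - ((4343805422 : ℤ) : ℝ) / 10 ^ 9| ≤ 1 / 10 ^ 8 := by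
  have e : log (((77 : ℕ) : ℝ)) = log 7 + log 11 := by
    rw [show (((77 : ℕ) : ℝ)) = 7 * 11 by norm_num]
    repeat rw [log_mul (by norm_num) (by norm_num)]
  rw [e, abs_le]; push_cast; constructor <;> linarith [lg_7.1, lg_7.2, lg_11.1, lg_11.2]

theorem tl_78 : |log ((78 : ℕ) : ℝ) - ((4356708827 : ℤ) : ℝ) / 10 ^ 9| ≤ 1 / 10 ^ 8 := by
  have e : log (((78 : ℕ) : ℝ)) = log 2 + log 3 + log 13 := by
    rw [show (((78 : ℕ) : ℝ)) = 2 * 3 * 13 by norm_num]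
    repeat rw [log_mul (by norm_num) (by norm_num)]
  rw [e, abs_le]; push_cast; constructor <;> linarith [lg_2.1, lg_2.2, lg_3.1, lg_3.2, lg_13.1, lg_13.2]

theorem tl_79 : |log ((79 : ℕ) : ℝ) - ((4369447852 : ℤ) : ℝ) / 10 ^ 9| ≤ 1 / 10 ^ 8 := by
  have := lg_79
  rw [abs_le]; push_cast; constructor <;> linarith [lg_79.1, lg_79.2]

theorem tl_82 : |log ((82 : ℕ) : ℝ) - ((4406719247 : ℤ) : ℝ) / 10 ^ 9| ≤ 1 / 10 ^ 8 := by
  have e : log (((82 : ℕ) : ℝ)) = log 2 + log 41 := by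
    rw [show (((82 : ℕ) : ℝ)) = 2 * 41 by norm_num]
    repeat rw [log_mul (by norm_num) (by norm_num)]
  rw [e, abs_le]; push_cast; constructor <;> linarith [lg_2.1, lg_2.2, lg_41.1, lg_41.2]

theorem tl_83 : |log ((83 : ℕ) : ℝ) - ((4418840608 : ℤ) : ℝ) / 10 ^ 9| ≤ 1 / 10 ^ 8 := by
  have := lg_83
  rw [abs_le]; push_cast; constructor <;> linarith [lg_83.1, lg_83.2]

theorem tl_85 : |log ((85 : ℕ) : ℝ) - ((4442651256 : ℤ) : ℝ) / 10 ^ 9| ≤ 1 / 10 ^ 8 := by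
  have e : log (((85 : ℕ) : ℝ)) = log 5 + log 17 := by
    rw [show (((85 : ℕ) : ℝ)) = 5 * 17 by norm_num]
    repeat rw [log_mul (by norm_num) (by norm_num)]
  rw [e, abs_le]; push_cast; constructor <;> linarith [lg_5.1, lg_5.2, lg_17.1, lg_17.2]

theorem tl_86 : |log ((86 : ℕ) : ℝ) - ((4454347296 : ℤ) : ℝ) / 10 ^ 9| ≤ 1 / 10 ^ 8 := by
  have e : log (((86 : ℕ) : ℝ)) = log 2 + log 43 := by
    rw [show (((86 : ℕ) : ℝ)) = 2 * 43 by norm_num]
    repeat rw [log_mul (by norm_num) (by norm_num)]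
  rw [e, abs_le]; push_cast; constructor <;> linarith [lg_2.1, lg_2.2, lg_43.1, lg_43.2]

theorem tl_87 : |log ((87 : ℕ) : ℝ) - ((4465908119 : ℤ) : ℝ) / 10 ^ 9| ≤ 1 / 10 ^ 8 := by
  have e : log (((87 : ℕ) : ℝ)) = log 3 + log 29 := by
    rw [show (((87 : ℕ) : ℝ)) = 3 * 29 by norm_num]
    repeat rw [log_mul (by norm_num) (by norm_num)]
  rw [e, abs_le]; push_cast; constructor <;> linarith [lg_3.1, lg_3.2, lg_29.1, lg_29.2]

theorem tl_89 : |log ((89 : ℕ) : ℝ) - ((4488636370 : ℤ) : ℝ) / 10 ^ 9| ≤ 1 / 10 ^ 8 := by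
  have := lg_89
  rw [abs_le]; push_cast; constructor <;> linarith [lg_89.1, lg_89.2]

theorem tl_91 : |log ((91 : ℕ) : ℝ) - ((4510859506 : ℤ) : ℝ) / 10 ^ 9| ≤ 1 / 10 ^ 8 := by
  have e : log (((91 : ℕ) : ℝ)) = log 7 + log 13 := by
    rw [show (((91 : ℕ) : ℝ)) = 7 * 13 by norm_num]
    repeat rw [log_mul (by norm_num) (by norm_num)]
  rw [e, abs_le]; push_cast; constructor <;> linarith [lg_7.1, lg_7.2, lg_13.1, lg_13.2]

theorem tl_93 : |log ((93 : ℕ) : ℝ) - ((4532599493 : ℤ) : ℝ) / 10 ^ 9| ≤ 1 / 10 ^ 8 := by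
  have e : log (((93 : ℕ) : ℝ)) = log 3 + log 31 := by
    rw [show (((93 : ℕ) : ℝ)) = 3 * 31 by norm_num]
    repeat rw [log_mul (by norm_num) (by norm_num)]
  rw [e, abs_le]; push_cast; constructor <;> linarith [lg_3.1, lg_3.2, lg_31.1, lg_31.2]

theorem tl_94 : |log ((94 : ℕ) : ℝ) - ((4543294782 : ℤ) : ℝ) / 10 ^ 9| ≤ 1 / 10 ^ 8 := by
  have e : log (((94 : ℕ) : ℝ)) = log 2 + log 47 := by
    rw [show (((94 : ℕ) : ℝ)) = 2 * 47 by norm_num]
    repeat rw [log_mul (by norm_num) (by norm_num)]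
  rw [e, abs_le]; push_cast; constructor <;> linarith [lg_2.1, lg_2.2, lg_47.1, lg_47.2]

theorem tl_95 : |log ((95 : ℕ) : ℝ) - ((4553876892 : ℤ) : ℝ) / 10 ^ 9| ≤ 1 / 10 ^ 8 := by
  have e : log (((95 : ℕ) : ℝ)) = log 5 + log 19 := by
    rw [show (((95 : ℕ) : ℝ)) = 5 * 19 by norm_num]
    repeat rw [log_mul (by norm_num) (by norm_num)]
  rw [e, abs_le]; push_cast; constructor <;> linarith [lg_5.1, lg_5.2, lg_19.1, lg_19.2]

theorem tl_97 : |log ((97 : ℕ) : ℝ) - ((4574710978 : ℤ) : ℝ) / 10 ^ 9| ≤ 1 / 10 ^ 8 := by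
  have := lg_97
  rw [abs_le]; push_cast; constructor <;> linarith [lg_97.1, lg_97.2]

theorem lgl_spec : ∀ p ∈ lgl, |log (p.1 : ℝ) - (p.2 : ℝ) / 10 ^ 9| ≤ 1 / 10 ^ 8 := by
  intro p hp
  simp only [lgl, List.mem_cons, List.not_mem_nil, or_false] at hp
  rcases hp with rfl | rfl | rfl | rfl | rfl | rfl | rfl | rfl | rfl | rfl | rfl | rfl | rfl | rfl | rfl | rfl | rfl | rfl | rfl | rfl | rfl | rfl | rfl | rfl | rfl | rfl | rfl | rfl | rfl | rfl | rfl | rfl | rfl | rfl | rfl | rfl | rfl | rfl | rfl | rfl | rfl | rfl | rfl | rfl | rfl | rfl | rfl | rfl | rfl | rfl | rfl | rfl | rfl | rfl | rfl | rfl | rfl | rfl | rfl | rfl | rfl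
  · exact tl_1
  · exact tl_2
  · exact tl_3
  · exact tl_5
  · exact tl_6
  · exact tl_7
  · exact tl_10
  · exact tl_11
  · exact tl_13
  · exact tl_14
  · exact tl_15
  · exact tl_17
  · exact tl_19
  · exact tl_21
  · exact tl_22
  · exact tl_23
  · exact tl_26
  · exact tl_29
  · exact tl_30
  · exact tl_31
  · exact tl_33
  · exact tl_34
  · exact tl_35
  · exact tl_37
  · exact tl_38
  · exact tl_39
  · exact tl_41
  · exact tl_42
  · exact tl_43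
  · exact tl_46
  · exact tl_47
  · exact tl_51
  · exact tl_53
  · exact tl_55
  · exact tl_57
  · exact tl_58
  · exact tl_59
  · exact tl_61
  · exact tl_62
  · exact tl_65
  · exact tl_66
  · exact tl_67
  · exact tl_69
  · exact tl_70
  · exact tl_71
  · exact tl_73
  · exact tl_74
  · exact tl_77
  · exact tl_78
  · exact tl_79
  · exact tl_82
  · exact tl_83
  · exact tl_85
  · exact tl_86
  · exact tl_87
  · exact tl_89
  · exact tl_91
  · exact tl_93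
  · exact tl_94
  · exact tl_95
  · exact tl_97

end Vale.Agent.P021.H159
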