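import Vale.Agent.P021.MathlibUsed
import Mathlib.Analysis.SpecialFunctions.Stirling

/-! P021, row (A): Stirling bounds at real arguments. -/

namespace Vale.Agent.P021.H159

open Real

theorem log_fac_le {n : ℕ} (hn : n ≠ 0) :
    log (n.factorial : ℝ) ≤ n * log n - n + log n / 2 + 1 := by
  obtain ⟨m, rfl⟩ := Nat.exists_eq_succ_of_ne_zero hn
  have h1 := Stirling.log_stirlingSeq'_antitone (Nat.zero_le m)
  simp only [Function.comp] at h1
  rw [Stirling.log_stirlingSeq_formula, Stirling.log_stirlingSeq_formula] at h1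
  have h2 : log ((m.succ : ℕ) / exp 1) = log (m.succ : ℕ) - 1 := by
    rw [log_div (by positivity) (by positivity), log_exp]
  have h3 : log (2 * ((m.succ : ℕ) : ℝ)) = log 2 + log (m.succ : ℕ) := by
    rw [log_mul (by norm_num) (by positivity)]
  rw [h2, h3] at h1
  have h4 : log (((Nat.succ 0 : ℕ) : ℝ) / exp 1) = -1 := by
    rw [log_div (by norm_num) (by positivity), log_exp]
    norm_num
  have h5 : log (2 * ((Nat.succ 0 : ℕ) : ℝ)) = log 2 := by norm_num
  rw [h4, h5] at h1
  norm_num [Nat.factorial] at h1 ⊢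
  nlinarith [h1]

theorem le_log_fac {n : ℕ} (hn : n ≠ 0) :
    n * log n - n + log n / 2 ≤ log (n.factorial : ℝ) := by
  have h := Stirling.le_log_factorial_stirling hn
  have h2 : 0 ≤ log (2 * π) := log_nonneg (by nlinarith [pi_gt_three])
  linarith

/-- `F t = t log t - t`. -/
noncomputable def F (t : ℝ) : ℝ := t * log t - t

theorem F_slope {s t : ℝ} (hs : 0 < s) (ht : 0 < t) : (t - s) * log s ≤ F t - F s := by
  have h := one_sub_inv_le_log_of_pos (div_pos ht hs)
  rw [log_div ht.ne' hs.ne'] at h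
  have h2 : (t / s)⁻¹ = s / t := by rw [inv_div]
  rw [h2] at h
  have h3 : t * (1 - s / t) = t - s := by field_simp
  have h4 : t * (1 - s / t) ≤ t * (log t - log s) := mul_le_mul_of_nonneg_left h ht.le
  unfold F
  nlinarith

theorem T_le {t : ℝ} (ht : 1 ≤ t) :
    log ((⌊t⌋₊).factorial : ℝ) ≤ F t + log t / 2 + 1 := by
  have hn : 1 ≤ ⌊t⌋₊ := (Nat.one_le_floor_iff t).2 ht
  have hle : ((⌊t⌋₊ : ℕ) : ℝ) ≤ t := Nat.floor_le (by linarith)
  set n := ⌊t⌋₊
  have hn' : (1 : ℝ) ≤ n := by exact_mod_cast hn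
  have h1 := log_fac_le (n := n) (by omega)
  have h2 := F_slope (s := (n : ℝ)) (t := t) (by linarith) (by linarith)
  have h3 : 0 ≤ log (n : ℝ) := log_nonneg hn'
  have h4 : log (n : ℝ) ≤ log t := log_le_log (by linarith) hle
  have h5 : 0 ≤ (t - n) * log (n : ℝ) := mul_nonneg (by linarith) h3
  unfold F at h2 ⊢
  linarith

theorem le_T {t : ℝ} (ht : 2 ≤ t) :
    F t - log t / 2 ≤ log ((⌊t⌋₊).factorial : ℝ) := by
  have hlt : t < ((⌊t⌋₊ : ℕ) : ℝ) + 1 := Nat.lt_floor_add_one t
  set n := ⌊t⌋₊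
  have h1 := le_log_fac (n := n + 1) (by omega)
  have h0 : log ((n + 1).factorial : ℝ) = log ((n + 1 : ℕ) : ℝ) + log (n.factorial : ℝ) := by
    rw [Nat.factorial_succ, Nat.cast_mul, log_mul (by positivity) (by positivity)]
  rw [h0] at h1
  push_cast at h1
  set u : ℝ := (n : ℝ) + 1
  have hu : t < u := hlt
  have h2 := F_slope (s := t) (t := u) (by linarith) (by linarith)
  have h3 : log u - log t ≤ (u - t) / 2 := by
    have h := log_le_sub_one_of_pos (div_pos (show 0 < u by linarith) (show 0 < t by linarith))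
    rw [log_div (by linarith) (by linarith)] at h
    have : u / t - 1 = (u - t) / t := by field_simp
    rw [this] at h
    have h6 : (u - t) / t ≤ (u - t) / 2 :=
      div_le_div_of_nonneg_left (by linarith) (by norm_num) ht
    linarith
  have h4 : (0.69 : ℝ) ≤ log t := by
    have := log_le_log (by norm_num : (0:ℝ) < 2) ht
    have h7 := log_two_gt_d9
    linarith
  have h5 : (u - t) * 0.69 ≤ (u - t) * log t := mul_le_mul_of_nonneg_left h4 (by linarith)
  unfold F at h2 ⊢
  linarith

end Vale.Agent.P021.H159
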