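import Vale.Agent.P021.H159.Check
import Vale.Agent.P021.H159.Logs
import Vale.Agent.P021.H159.Stir

/-! P021, row (A): the induction. -/

namespace Vale.Agent.P021.H159

open Real Vale.Agent.P021.Eff

/-- upper bound for the sum of the `T (x / d)` -/
theorem TA_up (m : List (ℕ × ℤ)) (x : ℝ) (hd : ∀ p ∈ m, 0 < p.1 ∧ 2 * (p.1 : ℝ) ≤ x) :
    ((scale m).map fun p => (p.2 : ℝ) * log ((⌊x⌋₊ / p.1).factorial : ℝ)).sum ≤
      x * (log x - 1) * ((m.map fun p => p.2).sum : ℤ) -
      x * (m.map fun p => (p.2 : ℝ) * log p.1).sum +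
      log x / 2 * ((m.map fun p => (p.1 : ℤ) * |p.2|).sum : ℤ) +
      ((m.map fun p => (p.1 : ℤ) * max p.2 0).sum : ℤ) := by
  induction m with
  | nil => simp [scale]
  | cons p m ih =>
    have ih' := ih fun q hq => hd q (List.mem_cons_of_mem _ hq)
    obtain ⟨hp, hpx⟩ := hd p List.mem_cons_self
    have hs : (scale (p :: m)) = (p.1, (p.1 : ℤ) * p.2) :: scale m := rfl
    rw [hs]
    simp only [List.map_cons, List.sum_cons]
    have hp1 : (1 : ℝ) ≤ p.1 := by exact_mod_cast hp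
    have hp0 : (0 : ℝ) < p.1 := by linarith
    have hx0 : 0 < x := by linarith
    have ht : 2 ≤ x / p.1 := by rw [le_div_iff₀ hp0]; exact hpx
    have h1 := T_le (t := x / p.1) (by linarith)
    have h2 := le_T (t := x / p.1) ht
    rw [Nat.floor_div_natCast] at h1 h2
    have h3 : log (x / p.1) = log x - log p.1 := log_div hx0.ne' hp0.ne'
    have h4 : 0 ≤ log (p.1 : ℝ) := log_nonneg hp1
    have hF : (p.1 : ℝ) * F (x / p.1) = x * (log x - 1) - x * log p.1 := by
      unfold F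
      rw [h3]
      field_simp
      ring
    set T := log ((⌊x⌋₊ / p.1).factorial : ℝ)
    have h5 : (((p.1 : ℤ) * p.2 : ℤ) : ℝ) * T ≤
        p.2 * (x * (log x - 1) - x * log p.1) + log x / 2 * (((p.1 : ℤ) * |p.2| : ℤ) : ℝ) +
          (((p.1 : ℤ) * max p.2 0 : ℤ) : ℝ) := by
      rw [← hF]
      push_cast
      rcases le_total 0 p.2 with hc | hc
      · have hc' : (0 : ℝ) ≤ (p.2 : ℝ) := by exact_mod_cast hc
        rw [abs_of_nonneg hc', max_eq_left hc']
        have h6 : T ≤ F (x / p.1) + log x / 2 + 1 := by rw [h3] at h1; linarith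
        have h7 := mul_le_mul_of_nonneg_left h6 (mul_nonneg hp0.le hc')
        nlinarith [h7]
      · have hc' : (p.2 : ℝ) ≤ 0 := by exact_mod_cast hc
        rw [abs_of_nonpos hc', max_eq_right hc']
        have h6 : F (x / p.1) - log x / 2 ≤ T := by rw [h3] at h2; linarith
        have h7 := mul_le_mul_of_nonneg_left h6 (mul_nonneg hp0.le (neg_nonneg.2 hc'))
        nlinarith [h7]
    push_cast at h5 ih' ⊢
    linarith

/-- lower bound for the sum of the `T (x / d)` -/
theorem TA_lo (m : List (ℕ × ℤ)) (x : ℝ) (hd : ∀ p ∈ m, 0 < p.1 ∧ 2 * (p.1 : ℝ) ≤ x) :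
    x * (log x - 1) * ((m.map fun p => p.2).sum : ℤ) -
      x * (m.map fun p => (p.2 : ℝ) * log p.1).sum -
      log x / 2 * ((m.map fun p => (p.1 : ℤ) * |p.2|).sum : ℤ) -
      ((m.map fun p => (p.1 : ℤ) * max (-p.2) 0).sum : ℤ) ≤
    ((scale m).map fun p => (p.2 : ℝ) * log ((⌊x⌋₊ / p.1).factorial : ℝ)).sum := by
  induction m with
  | nil => simp [scale]
  | cons p m ih =>
    have ih' := ih fun q hq => hd q (List.mem_cons_of_mem _ hq)
    obtain ⟨hp, hpx⟩ := hd p List.mem_cons_self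
    have hs : (scale (p :: m)) = (p.1, (p.1 : ℤ) * p.2) :: scale m := rfl
    rw [hs]
    simp only [List.map_cons, List.sum_cons]
    have hp1 : (1 : ℝ) ≤ p.1 := by exact_mod_cast hp
    have hp0 : (0 : ℝ) < p.1 := by linarith
    have hx0 : 0 < x := by linarith
    have ht : 2 ≤ x / p.1 := by rw [le_div_iff₀ hp0]; exact hpx
    have h1 := T_le (t := x / p.1) (by linarith)
    have h2 := le_T (t := x / p.1) ht
    rw [Nat.floor_div_natCast] at h1 h2
    have h3 : log (x / p.1) = log x - log p.1 := log_div hx0.ne' hp0.ne'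
    have h4 : 0 ≤ log (p.1 : ℝ) := log_nonneg hp1
    have hF : (p.1 : ℝ) * F (x / p.1) = x * (log x - 1) - x * log p.1 := by
      unfold F
      rw [h3]
      field_simp
      ring
    set T := log ((⌊x⌋₊ / p.1).factorial : ℝ)
    have h5 : p.2 * (x * (log x - 1) - x * log p.1) -
          log x / 2 * (((p.1 : ℤ) * |p.2| : ℤ) : ℝ) - (((p.1 : ℤ) * max (-p.2) 0 : ℤ) : ℝ) ≤
        (((p.1 : ℤ) * p.2 : ℤ) : ℝ) * T := by
      rw [← hF]
      push_cast
      rcases le_total 0 p.2 with hc | hc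
      · have hc' : (0 : ℝ) ≤ (p.2 : ℝ) := by exact_mod_cast hc
        rw [abs_of_nonneg hc', max_eq_right (by linarith)]
        have h6 : F (x / p.1) - log x / 2 ≤ T := by rw [h3] at h2; linarith
        have h7 := mul_le_mul_of_nonneg_left h6 (mul_nonneg hp0.le hc')
        nlinarith [h7]
      · have hc' : (p.2 : ℝ) ≤ 0 := by exact_mod_cast hc
        rw [abs_of_nonpos hc', max_eq_left (by linarith)]
        have h6 : T ≤ F (x / p.1) + log x / 2 + 1 := by rw [h3] at h1; linarith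
        have h7 := mul_le_mul_of_nonneg_left h6 (mul_nonneg hp0.le (neg_nonneg.2 hc'))
        nlinarith [h7]
    push_cast at h5 ih' ⊢
    linarith

def lookup : List (ℕ × ℤ) → ℕ → ℤ
  | [], _ => 0
  | p :: l, d => if p.1 = d then p.2 else lookup l d

theorem lookup_mem : ∀ (l : List (ℕ × ℤ)) (d : ℕ), d ∈ l.map (fun p => p.1) →
    (d, lookup l d) ∈ l
  | [], d, h => by simp at h
  | p :: l, d, h => by
    unfold lookup
    split_ifs with h1
    · subst h1; exact List.mem_cons_self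
    · refine List.mem_cons_of_mem _ (lookup_mem l d ?_)
      simp only [List.map_cons, List.mem_cons] at h
      rcases h with h | h
      · exact absurd h.symm h1
      · exact h

theorem log_sum (m : List (ℕ × ℤ)) (hm : ∀ p ∈ m, p.1 ∈ lgl.map (fun p => p.1)) :
    |(m.map fun p => (p.2 : ℝ) * log p.1).sum -
      (((m.map fun p => p.2 * lookup lgl p.1).sum : ℤ) : ℝ) / 10 ^ 9| ≤
      (((m.map fun p => |p.2|).sum : ℤ) : ℝ) / 10 ^ 8 := by
  induction m with
  | nil => simp
  | cons p m ih =>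
    have ih' := ih fun q hq => hm q (List.mem_cons_of_mem _ hq)
    have hp := lgl_spec _ (lookup_mem lgl p.1 (hm p List.mem_cons_self))
    simp only at hp
    simp only [List.map_cons, List.sum_cons]
    push_cast
    rw [abs_le] at ih' hp ⊢
    have h1 : |(p.2 : ℝ) * (log p.1 - (lookup lgl p.1 : ℝ) / 10 ^ 9)| ≤ |(p.2 : ℝ)| * (1 / 10 ^ 8) := by
      rw [abs_mul]
      exact mul_le_mul_of_nonneg_left (abs_le.2 hp) (abs_nonneg _)
    rw [abs_le] at h1
    push_cast at ih'
    constructor <;> linarith [h1.1, h1.2, ih'.1, ih'.2]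

/-- weights of the steps, upper side -/
def wU : List (ℕ × ℤ) → ℚ
  | [] => 0
  | p :: l => (if p.1 ≤ 150 then
        ((103 / 100 : ℚ) * ((max p.2 0 : ℤ) : ℚ) - (9695 / 10000 : ℚ) * ((max (-p.2) 0 : ℤ) : ℚ))
      else (104 / 100 : ℚ) * ((max p.2 0 : ℤ) : ℚ)) / (p.1 : ℚ) + wU l

/-- weights of the steps, lower side -/
def wL : List (ℕ × ℤ) → ℚ
  | [] => 0
  | p :: l => (if p.1 ≤ 150 then
        ((9695 / 10000 : ℚ) * ((max p.2 0 : ℤ) : ℚ) - (103 / 100 : ℚ) * ((max (-p.2) 0 : ℤ) : ℚ))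
      else - ((104 / 100 : ℚ) * ((max (-p.2) 0 : ℤ) : ℚ))) / (p.1 : ℚ) + wL l

theorem psi_floor_div (x : ℝ) (j : ℕ) :
    Chebyshev.psi ((⌊x⌋₊ / j : ℕ) : ℝ) = Chebyshev.psi (x / j) := by
  rw [Chebyshev.psi_eq_psi_coe_floor (x / j), Nat.floor_div_natCast]

theorem B_up (b : List (ℕ × ℤ)) (x : ℝ) (hb : ∀ p ∈ b, 0 < p.1)
    (h1 : ∀ p ∈ b, p.1 ≤ 150 → 0.9695 * (x / p.1) ≤ Chebyshev.psi (x / p.1) ∧
      Chebyshev.psi (x / p.1) ≤ 1.03 * (x / p.1))
    (h2 : ∀ p ∈ b, 150 < p.1 → 0 ≤ Chebyshev.psi (x / p.1) ∧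
      Chebyshev.psi (x / p.1) ≤ 1.04 * (x / p.1)) :
    (b.map fun p => (p.2 : ℝ) * Chebyshev.psi ((⌊x⌋₊ / p.1 : ℕ) : ℝ)).sum ≤ x * (wU b : ℚ) := by
  induction b with
  | nil => simp [wU]
  | cons p b ih =>
    have ih' := ih (fun q hq => hb q (List.mem_cons_of_mem _ hq))
      (fun q hq => h1 q (List.mem_cons_of_mem _ hq)) (fun q hq => h2 q (List.mem_cons_of_mem _ hq))
    have hp := hb p List.mem_cons_self
    have hp0 : (0 : ℝ) < p.1 := by exact_mod_cast hp
    simp only [List.map_cons, List.sum_cons, wU]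
    rw [psi_floor_div x p.1]
    have ha := h1 p List.mem_cons_self
    have hb' := h2 p List.mem_cons_self
    set P := Chebyshev.psi (x / p.1)
    have hm1 : (0 : ℝ) ≤ max (p.2 : ℝ) 0 := le_max_right _ _
    have hm2 : (0 : ℝ) ≤ max (-(p.2 : ℝ)) 0 := le_max_right _ _
    have hm3 : (p.2 : ℝ) = max (p.2 : ℝ) 0 - max (-(p.2 : ℝ)) 0 := by
      rcases le_total 0 (p.2 : ℝ) with hc | hc
      · rw [max_eq_left hc, max_eq_right (by linarith)]; ring
      · rw [max_eq_right hc, max_eq_left (by linarith)]; ring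
    set u := max (p.2 : ℝ) 0
    set v := max (-(p.2 : ℝ)) 0
    split_ifs with h
    · obtain ⟨h3, h4⟩ := ha h
      have h5 := mul_le_mul_of_nonneg_left h4 hm1
      have h6 := mul_le_mul_of_nonneg_left h3 hm2
      have h7 : (p.2 : ℝ) * P ≤ x * ((103 / 100 * u - 9695 / 10000 * v) / p.1) := by
        have : x * ((103 / 100 * u - 9695 / 10000 * v) / p.1) =
          u * (1.03 * (x / p.1)) - v * (0.9695 * (x / p.1)) := by ring
        rw [this, hm3]
        linarith
      push_cast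
      rw [mul_add]
      exact add_le_add h7 ih'
    · obtain ⟨h3, h4⟩ := hb' (by omega)
      have h5 := mul_le_mul_of_nonneg_left h4 hm1
      have h6 := mul_nonneg hm2 h3
      have h7 : (p.2 : ℝ) * P ≤ x * ((104 / 100 * u) / p.1) := by
        have : x * ((104 / 100 * u) / p.1) = u * (1.04 * (x / p.1)) := by ring
        rw [this, hm3]
        linarith
      push_cast
      rw [mul_add]
      exact add_le_add h7 ih'

theorem B_lo (b : List (ℕ × ℤ)) (x : ℝ) (hb : ∀ p ∈ b, 0 < p.1)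
    (h1 : ∀ p ∈ b, p.1 ≤ 150 → 0.9695 * (x / p.1) ≤ Chebyshev.psi (x / p.1) ∧
      Chebyshev.psi (x / p.1) ≤ 1.03 * (x / p.1))
    (h2 : ∀ p ∈ b, 150 < p.1 → 0 ≤ Chebyshev.psi (x / p.1) ∧
      Chebyshev.psi (x / p.1) ≤ 1.04 * (x / p.1)) :
    x * (wL b : ℚ) ≤ (b.map fun p => (p.2 : ℝ) * Chebyshev.psi ((⌊x⌋₊ / p.1 : ℕ) : ℝ)).sum := by
  induction b with
  | nil => simp [wL]
  | cons p b ih =>
    have ih' := ih (fun q hq => hb q (List.mem_cons_of_mem _ hq))
      (fun q hq => h1 q (List.mem_cons_of_mem _ hq)) (fun q hq => h2 q (List.mem_cons_of_mem _ hq))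
    have hp := hb p List.mem_cons_self
    have hp0 : (0 : ℝ) < p.1 := by exact_mod_cast hp
    simp only [List.map_cons, List.sum_cons, wL]
    rw [psi_floor_div x p.1]
    have ha := h1 p List.mem_cons_self
    have hb' := h2 p List.mem_cons_self
    set P := Chebyshev.psi (x / p.1)
    have hm1 : (0 : ℝ) ≤ max (p.2 : ℝ) 0 := le_max_right _ _
    have hm2 : (0 : ℝ) ≤ max (-(p.2 : ℝ)) 0 := le_max_right _ _
    have hm3 : (p.2 : ℝ) = max (p.2 : ℝ) 0 - max (-(p.2 : ℝ)) 0 := by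
      rcases le_total 0 (p.2 : ℝ) with hc | hc
      · rw [max_eq_left hc, max_eq_right (by linarith)]; ring
      · rw [max_eq_right hc, max_eq_left (by linarith)]; ring
    set u := max (p.2 : ℝ) 0
    set v := max (-(p.2 : ℝ)) 0
    split_ifs with h
    · obtain ⟨h3, h4⟩ := ha h
      have h5 := mul_le_mul_of_nonneg_left h4 hm2
      have h6 := mul_le_mul_of_nonneg_left h3 hm1
      have h7 : x * ((9695 / 10000 * u - 103 / 100 * v) / p.1) ≤ (p.2 : ℝ) * P := by
        have : x * ((9695 / 10000 * u - 103 / 100 * v) / p.1) =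
          u * (0.9695 * (x / p.1)) - v * (1.03 * (x / p.1)) := by ring
        rw [this, hm3]
        linarith
      push_cast
      rw [mul_add]
      exact add_le_add h7 ih'
    · obtain ⟨h3, h4⟩ := hb' (by omega)
      have h5 := mul_le_mul_of_nonneg_left h4 hm2
      have h6 := mul_nonneg hm1 h3
      have h7 : x * (-(104 / 100 * v) / p.1) ≤ (p.2 : ℝ) * P := by
        have : x * (-(104 / 100 * v) / p.1) = -(v * (1.04 * (x / p.1))) := by ring
        rw [this, hm3]
        linarith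
      push_cast
      rw [mul_add]
      exact add_le_add h7 ih'

end Vale.Agent.P021.H159
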