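import Vale.Agent.P021.H159.Chain

/-! P021, row (A), version 2: the estimates with parameters. -/

namespace Vale.Agent.P021.H159

open Real Vale.Agent.P021.Eff

/-- weights of the steps, upper side -/
def wU2 (L U C : ℚ) (J : ℕ) : List (ℕ × ℤ) → ℚ
  | [] => 0
  | p :: l => (if p.1 ≤ J then
        (U * ((max p.2 0 : ℤ) : ℚ) - L * ((max (-p.2) 0 : ℤ) : ℚ))
      else C * ((max p.2 0 : ℤ) : ℚ)) / (p.1 : ℚ) + wU2 L U C J l

/-- weights of the steps, lower side -/
def wL2 (L U C : ℚ) (J : ℕ) : List (ℕ × ℤ) → ℚ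
  | [] => 0
  | p :: l => (if p.1 ≤ J then
        (L * ((max p.2 0 : ℤ) : ℚ) - U * ((max (-p.2) 0 : ℤ) : ℚ))
      else - (C * ((max (-p.2) 0 : ℤ) : ℚ))) / (p.1 : ℚ) + wL2 L U C J l

theorem B_up2 (L U C : ℚ) (J : ℕ) (b : List (ℕ × ℤ)) (x : ℝ) (hb : ∀ p ∈ b, 0 < p.1)
    (h1 : ∀ p ∈ b, p.1 ≤ J → (L : ℝ) * (x / p.1) ≤ Chebyshev.psi (x / p.1) ∧
      Chebyshev.psi (x / p.1) ≤ (U : ℝ) * (x / p.1))
    (h2 : ∀ p ∈ b, J < p.1 → 0 ≤ Chebyshev.psi (x / p.1) ∧
      Chebyshev.psi (x / p.1) ≤ (C : ℝ) * (x / p.1)) :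
    (b.map fun p => (p.2 : ℝ) * Chebyshev.psi ((⌊x⌋₊ / p.1 : ℕ) : ℝ)).sum ≤ x * (wU2 L U C J b : ℚ) := by
  induction b with
  | nil => simp [wU2]
  | cons p b ih =>
    have ih' := ih (fun q hq => hb q (List.mem_cons_of_mem _ hq))
      (fun q hq => h1 q (List.mem_cons_of_mem _ hq)) (fun q hq => h2 q (List.mem_cons_of_mem _ hq))
    have hp := hb p List.mem_cons_self
    have hp0 : (0 : ℝ) < p.1 := by exact_mod_cast hp
    simp only [List.map_cons, List.sum_cons, wU2]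
    rw [psi_floor_div x p.1]
    have ha := h1 p List.mem_cons_self
    have hb' := h2 p List.mem_cons_self
    set P := Chebyshev.psi (x / p.1)
    have hm1 : (0 : ℝ) ≤ max (p.2 : ℝ) 0 := le_max_right _ _
    have hm2 : (0 : ℝ) ≤ max (-(p.2 : ℝ)) 0 := le_max_right _ _
    have hm3 : (p.2 : ℝ) = max (p.2 : ℝ) 0 - max (-(p.2 : ℝ)) 0 := by
      rcases le_total 0 (p.2 : ℝ) with hc | hc
      · rw [max_eq_left hc, max_eq_right (by linarith)]; ring
      · rw [max_eq_right hc, max_eq_left (by linarith)]; ring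
    set u := max (p.2 : ℝ) 0
    set v := max (-(p.2 : ℝ)) 0
    split_ifs with h
    · obtain ⟨h3, h4⟩ := ha h
      have h5 := mul_le_mul_of_nonneg_left h4 hm1
      have h6 := mul_le_mul_of_nonneg_left h3 hm2
      have h7 : (p.2 : ℝ) * P ≤ x * ((U * u - L * v) / p.1) := by
        have : x * ((U * u - L * v) / p.1) =
          u * ((U : ℝ) * (x / p.1)) - v * ((L : ℝ) * (x / p.1)) := by ring
        rw [this, hm3]
        linarith
      push_cast
      rw [mul_add]
      exact add_le_add h7 ih'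
    · obtain ⟨h3, h4⟩ := hb' (by omega)
      have h5 := mul_le_mul_of_nonneg_left h4 hm1
      have h6 := mul_nonneg hm2 h3
      have h7 : (p.2 : ℝ) * P ≤ x * ((C * u) / p.1) := by
        have : x * ((C * u) / p.1) = u * ((C : ℝ) * (x / p.1)) := by ring
        rw [this, hm3]
        linarith
      push_cast
      rw [mul_add]
      exact add_le_add h7 ih'

theorem B_lo2 (L U C : ℚ) (J : ℕ) (b : List (ℕ × ℤ)) (x : ℝ) (hb : ∀ p ∈ b, 0 < p.1)
    (h1 : ∀ p ∈ b, p.1 ≤ J → (L : ℝ) * (x / p.1) ≤ Chebyshev.psi (x / p.1) ∧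
      Chebyshev.psi (x / p.1) ≤ (U : ℝ) * (x / p.1))
    (h2 : ∀ p ∈ b, J < p.1 → 0 ≤ Chebyshev.psi (x / p.1) ∧
      Chebyshev.psi (x / p.1) ≤ (C : ℝ) * (x / p.1)) :
    x * (wL2 L U C J b : ℚ) ≤ (b.map fun p => (p.2 : ℝ) * Chebyshev.psi ((⌊x⌋₊ / p.1 : ℕ) : ℝ)).sum := by
  induction b with
  | nil => simp [wL2]
  | cons p b ih =>
    have ih' := ih (fun q hq => hb q (List.mem_cons_of_mem _ hq))
      (fun q hq => h1 q (List.mem_cons_of_mem _ hq)) (fun q hq => h2 q (List.mem_cons_of_mem _ hq))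
    have hp := hb p List.mem_cons_self
    have hp0 : (0 : ℝ) < p.1 := by exact_mod_cast hp
    simp only [List.map_cons, List.sum_cons, wL2]
    rw [psi_floor_div x p.1]
    have ha := h1 p List.mem_cons_self
    have hb' := h2 p List.mem_cons_self
    set P := Chebyshev.psi (x / p.1)
    have hm1 : (0 : ℝ) ≤ max (p.2 : ℝ) 0 := le_max_right _ _
    have hm2 : (0 : ℝ) ≤ max (-(p.2 : ℝ)) 0 := le_max_right _ _
    have hm3 : (p.2 : ℝ) = max (p.2 : ℝ) 0 - max (-(p.2 : ℝ)) 0 := by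
      rcases le_total 0 (p.2 : ℝ) with hc | hc
      · rw [max_eq_left hc, max_eq_right (by linarith)]; ring
      · rw [max_eq_right hc, max_eq_left (by linarith)]; ring
    set u := max (p.2 : ℝ) 0
    set v := max (-(p.2 : ℝ)) 0
    split_ifs with h
    · obtain ⟨h3, h4⟩ := ha h
      have h5 := mul_le_mul_of_nonneg_left h4 hm2
      have h6 := mul_le_mul_of_nonneg_left h3 hm1
      have h7 : x * ((L * u - U * v) / p.1) ≤ (p.2 : ℝ) * P := by
        have : x * ((L * u - U * v) / p.1) =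
          u * ((L : ℝ) * (x / p.1)) - v * ((U : ℝ) * (x / p.1)) := by ring
        rw [this, hm3]
        linarith
      push_cast
      rw [mul_add]
      exact add_le_add h7 ih'
    · obtain ⟨h3, h4⟩ := hb' (by omega)
      have h5 := mul_le_mul_of_nonneg_left h4 hm2
      have h6 := mul_nonneg hm1 h3
      have h7 : x * (-(C * v) / p.1) ≤ (p.2 : ℝ) * P := by
        have : x * (-(C * v) / p.1) = -(v * ((C : ℝ) * (x / p.1))) := by ring
        rw [this, hm3]
        linarith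
      push_cast
      rw [mul_add]
      exact add_le_add h7 ih'

end Vale.Agent.P021.H159
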