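import Vale.Agent.P021.H159.Step
import Vale.Agent.P021.Eff.Data

/-! P021, row (A): the two pointwise checks, in the kernel. -/

namespace Vale.Agent.P021.H159

open Vale.Agent.P021.Eff

def listPUp : List (ℕ × ℕ) :=
  [
    (1, 999999), (6, 1000002), (10, 1000000), (14, 1000006), (15, 1000005), (21, 731136),
    (22, 864116), (26, 1000012), (33, 561858), (34, 511904), (35, 369285), (38, 254486),
    (39, 839592), (46, 457884), (51, 28509), (55, 332750), (57, 56202), (58, 712820), (62, 15252),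
    (74, 334480), (82, 77490), (85, 176290), (86, 177074), (87, 201840), (91, 139776),
    (93, 332289), (94, 520102), (95, 134805), (97, 22892)]

def listNUp : List (ℕ × ℕ) :=
  [
    (2, 1000000), (3, 999999), (5, 1000000), (7, 999999), (11, 999999), (13, 999999),
    (17, 809302), (19, 804384), (23, 548688), (29, 816147), (30, 999990), (31, 381300),
    (37, 450105), (41, 77531), (42, 731136), (43, 551303), (47, 468966), (53, 380699),
    (59, 146320), (61, 191845), (66, 425964), (67, 137082), (69, 98877), (70, 421260),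
    (71, 292094), (73, 334486), (77, 25256), (78, 839592), (79, 356606), (83, 295148)]

def listPLo : List (ℕ × ℕ) :=
  [
    (1, 999996), (6, 1000002), (10, 1000000), (14, 999390), (15, 1000005), (21, 999999),
    (22, 1000010), (26, 679016), (33, 632973), (34, 493102), (38, 719150), (39, 906555),
    (46, 381340), (51, 364803), (55, 40315), (57, 335217), (58, 92800), (59, 75402), (62, 345588),
    (65, 90155), (69, 207000), (70, 124530), (73, 77307), (74, 256336), (77, 67144), (82, 18860),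
    (85, 131920), (86, 26230), (87, 224808), (91, 208026), (94, 22372), (95, 175750)]

def listNLo : List (ℕ × ℕ) :=
  [
    (2, 1000000), (3, 999999), (5, 1000000), (7, 999999), (11, 999999), (13, 999999),
    (17, 789854), (19, 1000008), (23, 996199), (29, 509298), (30, 999990), (31, 573593),
    (35, 74025), (37, 515077), (41, 349812), (42, 999390), (43, 402179), (53, 253923),
    (61, 178425), (66, 430782), (67, 292321), (71, 9656), (78, 670020), (79, 13983), (89, 612142),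
    (93, 105276), (97, 175764)]

def epUp (y : ℕ) : ℕ :=
  (Nat.add (Nat.mul 999999 (Nat.div y 1)) (Nat.add (Nat.mul 1000002 (Nat.div y 6)) 
  (Nat.add (Nat.mul 1000000 (Nat.div y 10)) (Nat.add (Nat.mul 1000006 (Nat.div y 14)) 
  (Nat.add (Nat.mul 1000005 (Nat.div y 15)) (Nat.add (Nat.mul 731136 (Nat.div y 21)) 
  (Nat.add (Nat.mul 864116 (Nat.div y 22)) (Nat.add (Nat.mul 1000012 (Nat.div y 26)) 
  (Nat.add (Nat.mul 561858 (Nat.div y 33)) (Nat.add (Nat.mul 511904 (Nat.div y 34)) 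
  (Nat.add (Nat.mul 369285 (Nat.div y 35)) (Nat.add (Nat.mul 254486 (Nat.div y 38)) 
  (Nat.add (Nat.mul 839592 (Nat.div y 39)) (Nat.add (Nat.mul 457884 (Nat.div y 46)) 
  (Nat.add (Nat.mul 28509 (Nat.div y 51)) (Nat.add (Nat.mul 332750 (Nat.div y 55)) 
  (Nat.add (Nat.mul 56202 (Nat.div y 57)) (Nat.add (Nat.mul 712820 (Nat.div y 58)) 
  (Nat.add (Nat.mul 15252 (Nat.div y 62)) (Nat.add (Nat.mul 334480 (Nat.div y 74)) 
  (Nat.add (Nat.mul 77490 (Nat.div y 82)) (Nat.add (Nat.mul 176290 (Nat.div y 85)) 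
  (Nat.add (Nat.mul 177074 (Nat.div y 86)) (Nat.add (Nat.mul 201840 (Nat.div y 87)) 
  (Nat.add (Nat.mul 139776 (Nat.div y 91)) (Nat.add (Nat.mul 332289 (Nat.div y 93)) 
  (Nat.add (Nat.mul 520102 (Nat.div y 94)) (Nat.add (Nat.mul 134805 (Nat.div y 95)) 
  (Nat.add (Nat.mul 22892 (Nat.div y 97)) 0)))))))))))))))))))))))))))))

def enUp (y : ℕ) : ℕ :=
  (Nat.add (Nat.mul 1000000 (Nat.div y 2)) (Nat.add (Nat.mul 999999 (Nat.div y 3)) 
  (Nat.add (Nat.mul 1000000 (Nat.div y 5)) (Nat.add (Nat.mul 999999 (Nat.div y 7)) 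
  (Nat.add (Nat.mul 999999 (Nat.div y 11)) (Nat.add (Nat.mul 999999 (Nat.div y 13)) 
  (Nat.add (Nat.mul 809302 (Nat.div y 17)) (Nat.add (Nat.mul 804384 (Nat.div y 19)) 
  (Nat.add (Nat.mul 548688 (Nat.div y 23)) (Nat.add (Nat.mul 816147 (Nat.div y 29)) 
  (Nat.add (Nat.mul 999990 (Nat.div y 30)) (Nat.add (Nat.mul 381300 (Nat.div y 31)) 
  (Nat.add (Nat.mul 450105 (Nat.div y 37)) (Nat.add (Nat.mul 77531 (Nat.div y 41)) 
  (Nat.add (Nat.mul 731136 (Nat.div y 42)) (Nat.add (Nat.mul 551303 (Nat.div y 43)) 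
  (Nat.add (Nat.mul 468966 (Nat.div y 47)) (Nat.add (Nat.mul 380699 (Nat.div y 53)) 
  (Nat.add (Nat.mul 146320 (Nat.div y 59)) (Nat.add (Nat.mul 191845 (Nat.div y 61)) 
  (Nat.add (Nat.mul 425964 (Nat.div y 66)) (Nat.add (Nat.mul 137082 (Nat.div y 67)) 
  (Nat.add (Nat.mul 98877 (Nat.div y 69)) (Nat.add (Nat.mul 421260 (Nat.div y 70)) 
  (Nat.add (Nat.mul 292094 (Nat.div y 71)) (Nat.add (Nat.mul 334486 (Nat.div y 73)) 
  (Nat.add (Nat.mul 25256 (Nat.div y 77)) (Nat.add (Nat.mul 839592 (Nat.div y 78)) 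
  (Nat.add (Nat.mul 356606 (Nat.div y 79)) (Nat.add (Nat.mul 295148 (Nat.div y 83)) 0))))))))))))))))))))))))))))))

def epLo (y : ℕ) : ℕ :=
  (Nat.add (Nat.mul 999996 (Nat.div y 1)) (Nat.add (Nat.mul 1000002 (Nat.div y 6)) 
  (Nat.add (Nat.mul 1000000 (Nat.div y 10)) (Nat.add (Nat.mul 999390 (Nat.div y 14)) 
  (Nat.add (Nat.mul 1000005 (Nat.div y 15)) (Nat.add (Nat.mul 999999 (Nat.div y 21)) 
  (Nat.add (Nat.mul 1000010 (Nat.div y 22)) (Nat.add (Nat.mul 679016 (Nat.div y 26)) 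
  (Nat.add (Nat.mul 632973 (Nat.div y 33)) (Nat.add (Nat.mul 493102 (Nat.div y 34)) 
  (Nat.add (Nat.mul 719150 (Nat.div y 38)) (Nat.add (Nat.mul 906555 (Nat.div y 39)) 
  (Nat.add (Nat.mul 381340 (Nat.div y 46)) (Nat.add (Nat.mul 364803 (Nat.div y 51)) 
  (Nat.add (Nat.mul 40315 (Nat.div y 55)) (Nat.add (Nat.mul 335217 (Nat.div y 57)) 
  (Nat.add (Nat.mul 92800 (Nat.div y 58)) (Nat.add (Nat.mul 75402 (Nat.div y 59)) 
  (Nat.add (Nat.mul 345588 (Nat.div y 62)) (Nat.add (Nat.mul 90155 (Nat.div y 65)) 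
  (Nat.add (Nat.mul 207000 (Nat.div y 69)) (Nat.add (Nat.mul 124530 (Nat.div y 70)) 
  (Nat.add (Nat.mul 77307 (Nat.div y 73)) (Nat.add (Nat.mul 256336 (Nat.div y 74)) 
  (Nat.add (Nat.mul 67144 (Nat.div y 77)) (Nat.add (Nat.mul 18860 (Nat.div y 82)) 
  (Nat.add (Nat.mul 131920 (Nat.div y 85)) (Nat.add (Nat.mul 26230 (Nat.div y 86)) 
  (Nat.add (Nat.mul 224808 (Nat.div y 87)) (Nat.add (Nat.mul 208026 (Nat.div y 91)) 
  (Nat.add (Nat.mul 22372 (Nat.div y 94)) (Nat.add (Nat.mul 175750 (Nat.div y 95)) 0))))))))))))))))))))))))))))))))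

def enLo (y : ℕ) : ℕ :=
  (Nat.add (Nat.mul 1000000 (Nat.div y 2)) (Nat.add (Nat.mul 999999 (Nat.div y 3)) 
  (Nat.add (Nat.mul 1000000 (Nat.div y 5)) (Nat.add (Nat.mul 999999 (Nat.div y 7)) 
  (Nat.add (Nat.mul 999999 (Nat.div y 11)) (Nat.add (Nat.mul 999999 (Nat.div y 13)) 
  (Nat.add (Nat.mul 789854 (Nat.div y 17)) (Nat.add (Nat.mul 1000008 (Nat.div y 19)) 
  (Nat.add (Nat.mul 996199 (Nat.div y 23)) (Nat.add (Nat.mul 509298 (Nat.div y 29)) 
  (Nat.add (Nat.mul 999990 (Nat.div y 30)) (Nat.add (Nat.mul 573593 (Nat.div y 31)) 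
  (Nat.add (Nat.mul 74025 (Nat.div y 35)) (Nat.add (Nat.mul 515077 (Nat.div y 37)) 
  (Nat.add (Nat.mul 349812 (Nat.div y 41)) (Nat.add (Nat.mul 999390 (Nat.div y 42)) 
  (Nat.add (Nat.mul 402179 (Nat.div y 43)) (Nat.add (Nat.mul 253923 (Nat.div y 53)) 
  (Nat.add (Nat.mul 178425 (Nat.div y 61)) (Nat.add (Nat.mul 430782 (Nat.div y 66)) 
  (Nat.add (Nat.mul 292321 (Nat.div y 67)) (Nat.add (Nat.mul 9656 (Nat.div y 71)) 
  (Nat.add (Nat.mul 670020 (Nat.div y 78)) (Nat.add (Nat.mul 13983 (Nat.div y 79)) 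
  (Nat.add (Nat.mul 612142 (Nat.div y 89)) (Nat.add (Nat.mul 105276 (Nat.div y 93)) 
  (Nat.add (Nat.mul 175764 (Nat.div y 97)) 0)))))))))))))))))))))))))))

/-- `∑ q * ⌊y / p⌋` over a list of naturals. -/
def sN : List (ℕ × ℕ) → ℕ → ℕ
  | [], _ => 0
  | p :: l, y => p.2 * (y / p.1) + sN l y

def chk (f : ℕ → Bool) (k : ℕ) : ℕ → Bool :=
  Nat.rec (fun y => f y) (fun k ih y => (ih y).and (ih (Nat.add y (Nat.pow 2 k)))) k

theorem chk_spec (f : ℕ → Bool) (k : ℕ) : ∀ y, chk f k y = true →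
    ∀ z, y ≤ z → z < y + 2 ^ k → f z = true := by
  induction k with
  | zero =>
    intro y h z h1 h2
    have : z = y := by simp at h2; omega
    subst this; exact h
  | succ k ih =>
    intro y h z h1 h2
    have h' : ((chk f k y).and (chk f k (Nat.add y (Nat.pow 2 k)))) = true := h
    rw [Bool.and_eq_true] at h'
    have h3 : Nat.add y (Nat.pow 2 k) = y + 2 ^ k := rfl
    rw [h3] at h'
    rcases lt_or_ge z (y + 2 ^ k) with h4 | h4
    · exact ih y h'.1 z h1 h4
    · refine ih (y + 2 ^ k) h'.2 z h4 ?_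
      rw [pow_succ] at h2
      omega

/-- The coefficient list `(d, d * m)`. -/
def scale (m : List (ℕ × ℤ)) : List (ℕ × ℤ) := m.map fun p => (p.1, (p.1 : ℤ) * p.2)

def nz (l : List (ℕ × ℕ)) : List (ℕ × ℕ) := l.filter fun p => p.2 != 0

theorem sN_nz (l : List (ℕ × ℕ)) (y : ℕ) : sN (nz l) y = sN l y := by
  induction l with
  | nil => rfl
  | cons p l ih =>
    unfold nz at ih ⊢
    rw [List.filter_cons]
    split_ifs with h
    · simp [sN, ih]
    · have h0 : p.2 = 0 := by simpa using h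
      simp [sN, ih, h0]

theorem evA_split (m : List (ℕ × ℤ)) (y : ℕ) :
    evA (scale m) y = (sN (m.map fun p => (p.1, p.1 * p.2.toNat)) y : ℤ) -
      (sN (m.map fun p => (p.1, p.1 * (-p.2).toNat)) y : ℤ) := by
  induction m with
  | nil => simp [evA, scale, sN]
  | cons p m ih =>
    have h1 : evA (scale (p :: m)) y =
        (p.1 : ℤ) * p.2 * ((y / p.1 : ℕ) : ℤ) + evA (scale m) y := by simp [evA, scale]
    have h2 : p.2 = (p.2.toNat : ℤ) - ((-p.2).toNat : ℤ) := by omega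
    rw [h1, ih]
    simp only [List.map_cons, sN]
    push_cast
    conv_lhs => rw [h2]
    ring

theorem evB_congr (b : List (ℕ × ℤ)) (y z : ℕ) (h : ∀ p ∈ b, (p.1 ≤ y ↔ p.1 ≤ z)) :
    evB b y = evB b z := by
  unfold evB
  congr 1
  refine List.map_congr_left fun p hp => ?_
  simp only [h p hp]

theorem tail_lo (m : List (ℕ × ℤ)) (hd : ∀ p ∈ m, 0 < p.1) (y : ℕ) :
    (y : ℤ) * (m.map fun p => p.2).sum - (m.map fun p => max p.2 0 * ((p.1 : ℤ) - 1)).sum ≤
      evA (scale m) y := by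
  induction m with
  | nil => simp [evA, scale]
  | cons p m ih =>
    have h1 : evA (scale (p :: m)) y =
        (p.1 : ℤ) * p.2 * ((y / p.1 : ℕ) : ℤ) + evA (scale m) y := by simp [evA, scale]
    have ih' := ih fun q hq => hd q (List.mem_cons_of_mem _ hq)
    have hp := hd p List.mem_cons_self
    rw [h1]
    simp only [List.map_cons, List.sum_cons]
    have h2 : (y : ℤ) = (p.1 : ℤ) * ((y / p.1 : ℕ) : ℤ) + ((y % p.1 : ℕ) : ℤ) := by
      exact_mod_cast (Nat.div_add_mod y p.1).symm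
    have h3 : ((y % p.1 : ℕ) : ℤ) ≤ (p.1 : ℤ) - 1 := by
      have := Nat.mod_lt y hp
      omega
    have h4 : (0 : ℤ) ≤ ((y % p.1 : ℕ) : ℤ) := by positivity
    have h5 : p.2 * ((y % p.1 : ℕ) : ℤ) ≤ max p.2 0 * ((p.1 : ℤ) - 1) :=
      (mul_le_mul_of_nonneg_right (le_max_left _ _) h4).trans
        (mul_le_mul_of_nonneg_left h3 (le_max_right _ _))
    have h6 : (p.1 : ℤ) * p.2 * ((y / p.1 : ℕ) : ℤ) =
        (y : ℤ) * p.2 - p.2 * ((y % p.1 : ℕ) : ℤ) := by
      conv_rhs => rw [h2]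
      ring
    rw [h6, mul_add]
    linarith

theorem tail_hi (m : List (ℕ × ℤ)) (hd : ∀ p ∈ m, 0 < p.1) (y : ℕ) :
    evA (scale m) y ≤
      (y : ℤ) * (m.map fun p => p.2).sum + (m.map fun p => max (-p.2) 0 * ((p.1 : ℤ) - 1)).sum := by
  induction m with
  | nil => simp [evA, scale]
  | cons p m ih =>
    have h1 : evA (scale (p :: m)) y =
        (p.1 : ℤ) * p.2 * ((y / p.1 : ℕ) : ℤ) + evA (scale m) y := by simp [evA, scale]
    have ih' := ih fun q hq => hd q (List.mem_cons_of_mem _ hq)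
    have hp := hd p List.mem_cons_self
    rw [h1]
    simp only [List.map_cons, List.sum_cons]
    have h2 : (y : ℤ) = (p.1 : ℤ) * ((y / p.1 : ℕ) : ℤ) + ((y % p.1 : ℕ) : ℤ) := by
      exact_mod_cast (Nat.div_add_mod y p.1).symm
    have h3 : ((y % p.1 : ℕ) : ℤ) ≤ (p.1 : ℤ) - 1 := by
      have := Nat.mod_lt y hp
      omega
    have h4 : (0 : ℤ) ≤ ((y % p.1 : ℕ) : ℤ) := by positivity
    have h5 : -p.2 * ((y % p.1 : ℕ) : ℤ) ≤ max (-p.2) 0 * ((p.1 : ℤ) - 1) :=
      (mul_le_mul_of_nonneg_right (le_max_left _ _) h4).trans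
        (mul_le_mul_of_nonneg_left h3 (le_max_right _ _))
    have h6 : (p.1 : ℤ) * p.2 * ((y / p.1 : ℕ) : ℤ) =
        (y : ℤ) * p.2 + -p.2 * ((y % p.1 : ℕ) : ℤ) := by
      conv_rhs => rw [h2]
      ring
    rw [h6, mul_add]
    linarith

def fUp (y : ℕ) : Bool := Nat.ble (Nat.add 999956 (enUp y)) (Nat.add 1895453 (epUp y))

def fLo (y : ℕ) : Bool := Nat.ble (epLo y) (Nat.add 3409442 (enLo y))

set_option maxRecDepth 100000

theorem cUp1 : chk fUp 13 150 = true := by decide +kernel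
theorem cUp2 : chk fUp 13 8342 = true := by decide +kernel
theorem cUp3 : chk fUp 13 16534 = true := by decide +kernel
theorem cUp4 : chk fUp 13 21809 = true := by decide +kernel
theorem cLo1 : chk fLo 13 150 = true := by decide +kernel
theorem cLo2 : chk fLo 13 8342 = true := by decide +kernel
theorem cLo3 : chk fLo 13 16534 = true := by decide +kernel
theorem cLo4 : chk fLo 13 21809 = true := by decide +kernel

theorem fUp_all (y : ℕ) (h1 : 150 ≤ y) (h2 : y < 30001) : fUp y = true := by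
  rcases lt_or_ge y 8342 with h | h
  · exact chk_spec fUp 13 150 cUp1 y h1 (by norm_num; omega)
  rcases lt_or_ge y 16534 with h' | h'
  · exact chk_spec fUp 13 8342 cUp2 y h (by norm_num; omega)
  rcases lt_or_ge y 21809 with h'' | h''
  · exact chk_spec fUp 13 16534 cUp3 y h' (by norm_num; omega)
  · exact chk_spec fUp 13 21809 cUp4 y h'' (by norm_num; omega)

theorem fLo_all (y : ℕ) (h1 : 150 ≤ y) (h2 : y < 30001) : fLo y = true := by
  rcases lt_or_ge y 8342 with h | h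
  · exact chk_spec fLo 13 150 cLo1 y h1 (by norm_num; omega)
  rcases lt_or_ge y 16534 with h' | h'
  · exact chk_spec fLo 13 8342 cLo2 y h (by norm_num; omega)
  rcases lt_or_ge y 21809 with h'' | h''
  · exact chk_spec fLo 13 16534 cLo3 y h' (by norm_num; omega)
  · exact chk_spec fLo 13 21809 cLo4 y h'' (by norm_num; omega)

theorem mapUp_pos : nz (mUp.map fun p => (p.1, p.1 * p.2.toNat)) = listPUp := by decide +kernel
theorem mapUp_neg : nz (mUp.map fun p => (p.1, p.1 * (-p.2).toNat)) = listNUp := by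
  decide +kernel
theorem mapLo_pos : nz (mLo.map fun p => (p.1, p.1 * p.2.toNat)) = listPLo := by decide +kernel
theorem mapLo_neg : nz (mLo.map fun p => (p.1, p.1 * (-p.2).toNat)) = listNLo := by
  decide +kernel

theorem sN_pUp (y : ℕ) : sN listPUp y = epUp y := rfl
theorem sN_nUp (y : ℕ) : sN listNUp y = enUp y := rfl
theorem sN_pLo (y : ℕ) : sN listPLo y = epLo y := rfl
theorem sN_nLo (y : ℕ) : sN listNLo y = enLo y := rfl

theorem evA_up (y : ℕ) : evA (scale mUp) y = (epUp y : ℤ) - (enUp y : ℤ) := by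
  rw [evA_split, ← sN_nz (mUp.map fun p => (p.1, p.1 * p.2.toNat)),
    ← sN_nz (mUp.map fun p => (p.1, p.1 * (-p.2).toNat)), mapUp_pos, mapUp_neg, sN_pUp, sN_nUp]

theorem evA_lo (y : ℕ) : evA (scale mLo) y = (epLo y : ℤ) - (enLo y : ℤ) := by
  rw [evA_split, ← sN_nz (mLo.map fun p => (p.1, p.1 * p.2.toNat)),
    ← sN_nz (mLo.map fun p => (p.1, p.1 * (-p.2).toNat)), mapLo_pos, mapLo_neg, sN_pLo, sN_nLo]

theorem small_up : ∀ y < 150, 1 ≤ y → nUp ≤ evA (scale mUp) y + evB bUp y := by decide +kernel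
theorem small_lo : ∀ y < 150, 1 ≤ y → evA (scale mLo) y + evB bLo y ≤ nLo := by decide +kernel

theorem bUp_mem : ∀ p ∈ bUp, (2 ≤ p.1 ∧ p.1 ≤ 150) ∨ p.1 = 30001 := by decide +kernel
theorem bLo_mem : ∀ p ∈ bLo, (2 ≤ p.1 ∧ p.1 ≤ 150) ∨ p.1 = 30001 := by decide +kernel
theorem mUp_pos : ∀ p ∈ mUp, 0 < p.1 := by decide +kernel
theorem mLo_pos : ∀ p ∈ mLo, 0 < p.1 := by decide +kernel

theorem up_point (y : ℕ) (hy : 1 ≤ y) : nUp ≤ evA (scale mUp) y + evB bUp y := by
  rcases lt_or_ge y 150 with h | h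
  · exact small_up y h hy
  rcases lt_or_ge y 30001 with h' | h'
  · have h1 : evB bUp y = evB bUp 150 := evB_congr bUp y 150 fun p hp => by
      rcases bUp_mem p hp with h2 | h2 <;> omega
    have h3 : evB bUp 150 = 1895453 := by decide +kernel
    have h4 := fUp_all y h h'
    have h5 : 999956 + enUp y ≤ 1895453 + epUp y := Nat.le_of_ble_eq_true h4
    rw [h1, h3, evA_up]
    have : nUp = 999956 := rfl
    rw [this]
    omega
  · have h1 : evB bUp y = evB bUp 30001 := evB_congr bUp y 30001 fun p hp => by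
      rcases bUp_mem p hp with h2 | h2 <;> omega
    have h3 := tail_lo mUp mUp_pos y
    have h4 : (mUp.map fun p => p.2).sum = 0 := by decide +kernel
    have h5 : nUp + (mUp.map fun p => max p.2 0 * ((p.1 : ℤ) - 1)).sum ≤ evB bUp 30001 := by
      decide +kernel
    rw [h4, mul_zero] at h3
    rw [h1]
    linarith

theorem lo_point (y : ℕ) (hy : 1 ≤ y) : evA (scale mLo) y + evB bLo y ≤ nLo := by
  rcases lt_or_ge y 150 with h | h
  · exact small_lo y h hy
  rcases lt_or_ge y 30001 with h' | h'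
  · have h1 : evB bLo y = evB bLo 150 := evB_congr bLo y 150 fun p hp => by
      rcases bLo_mem p hp with h2 | h2 <;> omega
    have h3 : evB bLo 150 = -2409426 := by decide +kernel
    have h4 := fLo_all y h h'
    have h5 : epLo y ≤ 3409442 + enLo y := Nat.le_of_ble_eq_true h4
    rw [h1, h3, evA_lo]
    have : nLo = 1000016 := rfl
    rw [this]
    omega
  · have h1 : evB bLo y = evB bLo 30001 := evB_congr bLo y 30001 fun p hp => by
      rcases bLo_mem p hp with h2 | h2 <;> omega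
    have h3 := tail_hi mLo mLo_pos y
    have h4 : (mLo.map fun p => p.2).sum = 0 := by decide +kernel
    have h5 : (mLo.map fun p => max (-p.2) 0 * ((p.1 : ℤ) - 1)).sum + evB bLo 30001 ≤ nLo := by
      decide +kernel
    rw [h4, mul_zero] at h3
    rw [h1]
    linarith

end Vale.Agent.P021.H159
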