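import Vale.Agent.P021.H159.Chain

/-! P021, row (A): from the base range `x ≤ 300000` to all `x`. -/

namespace Vale.Agent.P021.H159

open Real Vale.Agent.P021.Eff

theorem log_x_le {x : ℝ} (hx : 300000 ≤ x) : log x ≤ x / 300000 + 11.612 := by
  have h1 : log x = log 300000 + log (x / 300000) := by
    rw [← log_mul (by norm_num) (by positivity)]
    congr 1
    field_simp
  have h2 : log 300000 = log 3 + (5 * log 2 + 5 * log 5) := by
    rw [show (300000 : ℝ) = 3 * (2 ^ 5 * 5 ^ 5) by norm_num, log_mul (by norm_num) (by norm_num),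
      log_mul (by norm_num) (by norm_num), log_pow, log_pow]
    norm_num
  have h3 := log_le_sub_one_of_pos (show 0 < x / 300000 by positivity)
  have := lg_2; have := lg_3; have := lg_5
  rw [h1, h2]
  linarith [lg_2.2, lg_3.2, lg_5.2]

theorem mUp_key : ∀ p ∈ mUp, p.1 ∈ lgl.map (fun p => p.1) := by decide +kernel
theorem mLo_key : ∀ p ∈ mLo, p.1 ∈ lgl.map (fun p => p.1) := by decide +kernel
theorem mUp_le : ∀ p ∈ mUp, p.1 ≤ 100 := by decide +kernel
theorem mLo_le : ∀ p ∈ mLo, p.1 ≤ 100 := by decide +kernel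
theorem wU_le : wU bUp ≤ 57236 / 10 := by decide +kernel
theorem wL_ge : -(375829 / 10) ≤ wL bLo := by decide +kernel

theorem sUp0 : (mUp.map fun p => p.2).sum = 0 := by decide +kernel
theorem sUp1 : (mUp.map fun p => (p.1 : ℤ) * |p.2|).sum = 30436933 := by decide +kernel
theorem sUp2 : (mUp.map fun p => (p.1 : ℤ) * max p.2 0).sum = 13852856 := by decide +kernel
theorem sUp3 : (mUp.map fun p => p.2 * lookup lgl p.1).sum = -1023457671779178 := by
  decide +kernel
theorem sUp4 : (mUp.map fun p => |p.2|).sum = 3284952 := by decide +kernel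
theorem sLo0 : (mLo.map fun p => p.2).sum = 0 := by decide +kernel
theorem sLo1 : (mLo.map fun p => (p.1 : ℤ) * |p.2|).sum = 29647814 := by decide +kernel
theorem sLo2 : (mLo.map fun p => (p.1 : ℤ) * max (-p.2) 0).sum = 15951713 := by decide +kernel
theorem sLo3 : (mLo.map fun p => p.2 * lookup lgl p.1).sum = -1008006436612640 := by
  decide +kernel
theorem sLo4 : (mLo.map fun p => |p.2|).sum = 3301748 := by decide +kernel

theorem bUp_pos : ∀ p ∈ bUp, 0 < p.1 := by decide +kernel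
theorem bLo_pos : ∀ p ∈ bLo, 0 < p.1 := by decide +kernel

theorem psi_up (x : ℝ) (hx : 300000 ≤ x)
    (h1 : ∀ j : ℕ, 2 ≤ j → j ≤ 150 → 0.9695 * (x / j) ≤ Chebyshev.psi (x / j) ∧
      Chebyshev.psi (x / j) ≤ 1.03 * (x / j))
    (h2 : Chebyshev.psi (x / (30001 : ℕ)) ≤ 1.04 * (x / (30001 : ℕ))) :
    Chebyshev.psi x ≤ 1.03 * x := by
  have s := step_le nUp (scale mUp) bUp bUp_pos up_point ⌊x⌋₊
  rw [← Chebyshev.psi_eq_psi_coe_floor] at s
  have a := TA_up mUp x fun p hp => ⟨mUp_pos p hp, by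
    have h : (p.1 : ℝ) ≤ 100 := by exact_mod_cast mUp_le p hp
    linarith⟩
  have b := B_up bUp x bUp_pos
    (fun p hp h => by
      rcases bUp_mem p hp with h3 | h3
      · exact h1 p.1 h3.1 h3.2
      · omega)
    (fun p hp h => by
      rcases bUp_mem p hp with h3 | h3
      · omega
      · rw [h3]; exact ⟨Chebyshev.psi_nonneg _, h2⟩)
  have l := log_sum mUp mUp_key
  have lx := log_x_le hx
  have w : ((wU bUp : ℚ) : ℝ) ≤ 57236 / 10 := by
    have h : ((wU bUp : ℚ) : ℝ) ≤ ((57236 / 10 : ℚ) : ℝ) := Rat.cast_le.2 wU_le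
    push_cast at h
    exact h
  rw [sUp3, sUp4, abs_le] at l
  rw [sUp0, sUp1, sUp2] at a
  have hn : ((nUp : ℤ) : ℝ) = 999956 := by norm_num [nUp]
  rw [hn] at s
  obtain ⟨l1, -⟩ := l
  set C := (mUp.map fun p => (p.2 : ℝ) * log p.1).sum
  have c1 : -(1023457.75 : ℝ) ≤ C := by
    push_cast at l1
    linarith
  have c2 := mul_le_mul_of_nonneg_left c1 (show 0 ≤ x by linarith)
  have c3 := mul_le_mul_of_nonneg_left w (show 0 ≤ x by linarith)
  push_cast at a
  nlinarith [s, a, b, c2, c3, lx]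

theorem psi_lo (x : ℝ) (hx : 300000 ≤ x)
    (h1 : ∀ j : ℕ, 2 ≤ j → j ≤ 150 → 0.9695 * (x / j) ≤ Chebyshev.psi (x / j) ∧
      Chebyshev.psi (x / j) ≤ 1.03 * (x / j))
    (h2 : Chebyshev.psi (x / (30001 : ℕ)) ≤ 1.04 * (x / (30001 : ℕ))) :
    0.9695 * x ≤ Chebyshev.psi x := by
  have s := le_step nLo (scale mLo) bLo bLo_pos lo_point ⌊x⌋₊
  rw [← Chebyshev.psi_eq_psi_coe_floor] at s
  have a := TA_lo mLo x fun p hp => ⟨mLo_pos p hp, by
    have h : (p.1 : ℝ) ≤ 100 := by exact_mod_cast mLo_le p hp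
    linarith⟩
  have b := B_lo bLo x bLo_pos
    (fun p hp h => by
      rcases bLo_mem p hp with h3 | h3
      · exact h1 p.1 h3.1 h3.2
      · omega)
    (fun p hp h => by
      rcases bLo_mem p hp with h3 | h3
      · omega
      · rw [h3]; exact ⟨Chebyshev.psi_nonneg _, h2⟩)
  have l := log_sum mLo mLo_key
  have lx := log_x_le hx
  have w : -(375829 / 10 : ℝ) ≤ ((wL bLo : ℚ) : ℝ) := by
    have h : ((-(375829 / 10) : ℚ) : ℝ) ≤ ((wL bLo : ℚ) : ℝ) := Rat.cast_le.2 wL_ge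
    push_cast at h
    exact h
  rw [sLo3, sLo4, abs_le] at l
  rw [sLo0, sLo1, sLo2] at a
  have hn : ((nLo : ℤ) : ℝ) = 1000016 := by norm_num [nLo]
  rw [hn] at s
  obtain ⟨-, l1⟩ := l
  set C := (mLo.map fun p => (p.2 : ℝ) * log p.1).sum
  have c1 : C ≤ -(1008006.375 : ℝ) := by
    push_cast at l1
    linarith
  have c2 := mul_le_mul_of_nonneg_left c1 (show 0 ≤ x by linarith)
  have c3 := mul_le_mul_of_nonneg_left w (show 0 ≤ x by linarith)
  push_cast at a
  nlinarith [s, a, b, c2, c3, lx]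

theorem rowA_of_base
    (hb1 : ∀ x : ℝ, 2000 ≤ x → x ≤ 300000 →
      0.9695 * x ≤ Chebyshev.psi x ∧ Chebyshev.psi x ≤ 1.03 * x)
    (hb2 : ∀ x : ℝ, 0 ≤ x → x ≤ 300000 → Chebyshev.psi x ≤ 1.04 * x) :
    (∀ x : ℝ, 2000 ≤ x → 0.9695 * x ≤ Chebyshev.psi x ∧ Chebyshev.psi x ≤ 1.03 * x) ∧
      ∀ x : ℝ, 0 ≤ x → Chebyshev.psi x ≤ 1.04 * x := by
  have key : ∀ n : ℕ, ∀ x : ℝ, x ≤ 300000 * 2 ^ n →
      (2000 ≤ x → 0.9695 * x ≤ Chebyshev.psi x ∧ Chebyshev.psi x ≤ 1.03 * x) ∧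
      (0 ≤ x → Chebyshev.psi x ≤ 1.04 * x) := by
    intro n
    induction n with
    | zero =>
      intro x hx
      rw [pow_zero, mul_one] at hx
      exact ⟨fun h => hb1 x h hx, fun h => hb2 x h hx⟩
    | succ n ih =>
      intro x hx
      rcases le_total x 300000 with h | h
      · exact ⟨fun h' => hb1 x h' h, fun h' => hb2 x h' h⟩
      have hj : ∀ j : ℕ, 2 ≤ j → x / j ≤ 300000 * 2 ^ n := fun j hj => by
        have hj' : (2 : ℝ) ≤ j := by exact_mod_cast hj
        have : x / j ≤ x / 2 := div_le_div_of_nonneg_left (by linarith) (by norm_num) hj'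
        rw [pow_succ] at hx
        linarith
      have h1 : ∀ j : ℕ, 2 ≤ j → j ≤ 150 → 0.9695 * (x / j) ≤ Chebyshev.psi (x / j) ∧
          Chebyshev.psi (x / j) ≤ 1.03 * (x / j) := fun j h2 h3 => by
        refine (ih (x / j) (hj j h2)).1 ?_
        have h3' : (j : ℝ) ≤ 150 := by exact_mod_cast h3
        have h2' : (2 : ℝ) ≤ j := by exact_mod_cast h2
        rw [le_div_iff₀ (by linarith)]
        nlinarith
      have h2 : Chebyshev.psi (x / (30001 : ℕ)) ≤ 1.04 * (x / (30001 : ℕ)) :=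
        (ih _ (hj 30001 (by norm_num))).2 (by positivity)
      have u := psi_up x h h1 h2
      have l := psi_lo x h h1 h2
      exact ⟨fun _ => ⟨l, u⟩, fun _ => by linarith⟩
  have big : ∀ x : ℝ, ∃ n : ℕ, x ≤ 300000 * 2 ^ n := fun x => by
    obtain ⟨n, hn⟩ := pow_unbounded_of_one_lt (x / 300000) (by norm_num : (1 : ℝ) < 2)
    exact ⟨n, by rw [div_lt_iff₀ (by norm_num)] at hn; linarith⟩
  exact ⟨fun x hx => by obtain ⟨n, hn⟩ := big x; exact (key n x hn).1 hx,
    fun x hx => by obtain ⟨n, hn⟩ := big x; exact (key n x hn).2 hx⟩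

end Vale.Agent.P021.H159
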