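import Vale.Agent.P021.H159.Chain2
import Vale.Agent.P021.H476.LogNum

/-! P021, row (A), version 2: from the base range `x ≤ 10 ^ 6` and the two pointwise checks to
all `x`. -/

namespace Vale.Agent.P021.H159

open Real Vale.Agent.P021.Eff Vale.Agent.P021.H476

theorem log_x_le2 {x : ℝ} (hx : 1000000 ≤ x) : log x ≤ x / 1000000 + 12.8156 := by
  have h1 : log x = log 1000000 + log (x / 1000000) := by
    rw [← log_mul (by norm_num) (by positivity)]
    congr 1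
    field_simp
  have h2 : log 1000000 = 6 * log 2 + 6 * log 5 := by
    rw [show (1000000 : ℝ) = 2 ^ 6 * 5 ^ 6 by norm_num, log_mul (by norm_num) (by norm_num),
      log_pow, log_pow]
    norm_num
  have h3 := log_le_sub_one_of_pos (show 0 < x / 1000000 by positivity)
  rw [h1, h2]
  linarith [lg_2.2, lg_5.2]

theorem mUp2_le : ∀ p ∈ mUp2, 0 < p.1 ∧ p.1 ≤ 200 := by decide +kernel
theorem mLo2_le : ∀ p ∈ mLo2, 0 < p.1 ∧ p.1 ≤ 200 := by decide +kernel
theorem bUp2_mem : ∀ p ∈ bUp2, (2 ≤ p.1 ∧ p.1 ≤ 500) ∨ p.1 = 100001 := by decide +kernel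
theorem bLo2_mem : ∀ p ∈ bLo2, (2 ≤ p.1 ∧ p.1 ≤ 500) ∨ p.1 = 100001 := by decide +kernel
theorem wU2_le : wU2 (984 / 1000) (10162 / 10000) (104 / 100) 500 bUp2 ≤ -2354820 := by
  decide +kernel
theorem wL2_ge : -8327679 ≤ wL2 (984 / 1000) (10162 / 10000) (104 / 100) 500 bLo2 := by
  decide +kernel

theorem sUp20 : (mUp2.map fun p => p.2).sum = 0 := by decide +kernel
theorem sUp21 : (mUp2.map fun p => (p.1 : ℤ) * |p.2|).sum = 6407588961 := by decide +kernel
theorem sUp22 : (mUp2.map fun p => (p.1 : ℤ) * max p.2 0).sum = 2954652105 := by decide +kernel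
theorem sLo20 : (mLo2.map fun p => p.2).sum = 0 := by decide +kernel
theorem sLo21 : (mLo2.map fun p => (p.1 : ℤ) * |p.2|).sum = 6443955184 := by decide +kernel
theorem sLo22 : (mLo2.map fun p => (p.1 : ℤ) * max (-p.2) 0).sum = 3573291147 := by
  decide +kernel

theorem psi_up2 (hpt : ∀ y : ℕ, 1 ≤ y → nUp2 ≤ evA (scale mUp2) y + evB bUp2 y)
    (x : ℝ) (hx : 1000000 ≤ x)
    (h1 : ∀ j : ℕ, 2 ≤ j → j ≤ 500 → 0.984 * (x / j) ≤ Chebyshev.psi (x / j) ∧
      Chebyshev.psi (x / j) ≤ 1.0162 * (x / j))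
    (h2 : Chebyshev.psi (x / (100001 : ℕ)) ≤ 1.04 * (x / (100001 : ℕ))) :
    Chebyshev.psi x ≤ 1.0162 * x := by
  have hpos : ∀ p ∈ bUp2, 0 < p.1 := fun p hp => by
    rcases bUp2_mem p hp with h | h <;> omega
  have s := step_le nUp2 (scale mUp2) bUp2 hpos hpt ⌊x⌋₊
  rw [← Chebyshev.psi_eq_psi_coe_floor] at s
  have a := TA_up mUp2 x fun p hp => ⟨(mUp2_le p hp).1, by
    have h : (p.1 : ℝ) ≤ 200 := by exact_mod_cast (mUp2_le p hp).2
    linarith⟩
  have b := B_up2 (984 / 1000) (10162 / 10000) (104 / 100) 500 bUp2 x hpos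
    (fun p hp h => by
      rcases bUp2_mem p hp with h3 | h3
      · have := h1 p.1 h3.1 h3.2
        push_cast
        norm_num at this ⊢
        exact this
      · omega)
    (fun p hp h => by
      rcases bUp2_mem p hp with h3 | h3
      · omega
      · rw [h3]
        refine ⟨Chebyshev.psi_nonneg _, ?_⟩
        push_cast at h2 ⊢
        norm_num at h2 ⊢
        exact h2)
  have lx := log_x_le2 hx
  have w : ((wU2 (984 / 1000) (10162 / 10000) (104 / 100) 500 bUp2 : ℚ) : ℝ) ≤ -2354820 := by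
    have h : ((wU2 (984 / 1000) (10162 / 10000) (104 / 100) 500 bUp2 : ℚ) : ℝ) ≤
      ((-2354820 : ℚ) : ℝ) := Rat.cast_le.2 wU2_le
    push_cast at h
    exact h
  rw [sUp20, sUp21, sUp22] at a
  have hn : ((nUp2 : ℤ) : ℝ) = 99999701 := by norm_num [nUp2]
  rw [hn] at s
  have c1 := sumLog_mUp2.1
  unfold sumLog at c1
  have c2 := mul_le_mul_of_nonneg_left c1 (show 0 ≤ x by linarith)
  have c3 := mul_le_mul_of_nonneg_left w (show 0 ≤ x by linarith)
  push_cast at a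
  nlinarith [s, a, b, c2, c3, lx]

theorem psi_lo2 (hpt : ∀ y : ℕ, 1 ≤ y → evA (scale mLo2) y + evB bLo2 y ≤ nLo2)
    (x : ℝ) (hx : 1000000 ≤ x)
    (h1 : ∀ j : ℕ, 2 ≤ j → j ≤ 500 → 0.984 * (x / j) ≤ Chebyshev.psi (x / j) ∧
      Chebyshev.psi (x / j) ≤ 1.0162 * (x / j))
    (h2 : Chebyshev.psi (x / (100001 : ℕ)) ≤ 1.04 * (x / (100001 : ℕ))) :
    0.984 * x ≤ Chebyshev.psi x := by
  have hpos : ∀ p ∈ bLo2, 0 < p.1 := fun p hp => by
    rcases bLo2_mem p hp with h | h <;> omega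
  have s := le_step nLo2 (scale mLo2) bLo2 hpos hpt ⌊x⌋₊
  rw [← Chebyshev.psi_eq_psi_coe_floor] at s
  have a := TA_lo mLo2 x fun p hp => ⟨(mLo2_le p hp).1, by
    have h : (p.1 : ℝ) ≤ 200 := by exact_mod_cast (mLo2_le p hp).2
    linarith⟩
  have b := B_lo2 (984 / 1000) (10162 / 10000) (104 / 100) 500 bLo2 x hpos
    (fun p hp h => by
      rcases bLo2_mem p hp with h3 | h3
      · have := h1 p.1 h3.1 h3.2
        push_cast
        norm_num at this ⊢
        exact this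
      · omega)
    (fun p hp h => by
      rcases bLo2_mem p hp with h3 | h3
      · omega
      · rw [h3]
        refine ⟨Chebyshev.psi_nonneg _, ?_⟩
        push_cast at h2 ⊢
        norm_num at h2 ⊢
        exact h2)
  have lx := log_x_le2 hx
  have w : (-8327679 : ℝ) ≤
      ((wL2 (984 / 1000) (10162 / 10000) (104 / 100) 500 bLo2 : ℚ) : ℝ) := by
    have h : ((-8327679 : ℚ) : ℝ) ≤
      ((wL2 (984 / 1000) (10162 / 10000) (104 / 100) 500 bLo2 : ℚ) : ℝ) := Rat.cast_le.2 wL2_ge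
    push_cast at h
    exact h
  rw [sLo20, sLo21, sLo22] at a
  have hn : ((nLo2 : ℤ) : ℝ) = 100000057 := by norm_num [nLo2]
  rw [hn] at s
  have c1 := sumLog_mLo2.2
  unfold sumLog at c1
  have c2 := mul_le_mul_of_nonneg_left c1 (show 0 ≤ x by linarith)
  have c3 := mul_le_mul_of_nonneg_left w (show 0 ≤ x by linarith)
  push_cast at a
  nlinarith [s, a, b, c2, c3, lx]

theorem rowA2_of_base
    (hptU : ∀ y : ℕ, 1 ≤ y → nUp2 ≤ evA (scale mUp2) y + evB bUp2 y)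
    (hptL : ∀ y : ℕ, 1 ≤ y → evA (scale mLo2) y + evB bLo2 y ≤ nLo2)
    (hb1 : ∀ x : ℝ, 2000 ≤ x → x ≤ 1000000 →
      0.984 * x ≤ Chebyshev.psi x ∧ Chebyshev.psi x ≤ 1.0162 * x)
    (hb2 : ∀ x : ℝ, 0 ≤ x → x ≤ 1000000 → Chebyshev.psi x ≤ 1.04 * x) :
    (∀ x : ℝ, 2000 ≤ x → 0.984 * x ≤ Chebyshev.psi x ∧ Chebyshev.psi x ≤ 1.0162 * x) ∧
      ∀ x : ℝ, 0 ≤ x → Chebyshev.psi x ≤ 1.04 * x := by
  have key : ∀ n : ℕ, ∀ x : ℝ, x ≤ 1000000 * 2 ^ n →
      (2000 ≤ x → 0.984 * x ≤ Chebyshev.psi x ∧ Chebyshev.psi x ≤ 1.0162 * x) ∧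
      (0 ≤ x → Chebyshev.psi x ≤ 1.04 * x) := by
    intro n
    induction n with
    | zero =>
      intro x hx
      rw [pow_zero, mul_one] at hx
      exact ⟨fun h => hb1 x h hx, fun h => hb2 x h hx⟩
    | succ n ih =>
      intro x hx
      rcases le_total x 1000000 with h | h
      · exact ⟨fun h' => hb1 x h' h, fun h' => hb2 x h' h⟩
      have hj : ∀ j : ℕ, 2 ≤ j → x / j ≤ 1000000 * 2 ^ n := fun j hj => by
        have hj' : (2 : ℝ) ≤ j := by exact_mod_cast hj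
        have : x / j ≤ x / 2 := div_le_div_of_nonneg_left (by linarith) (by norm_num) hj'
        rw [pow_succ] at hx
        linarith
      have h1 : ∀ j : ℕ, 2 ≤ j → j ≤ 500 → 0.984 * (x / j) ≤ Chebyshev.psi (x / j) ∧
          Chebyshev.psi (x / j) ≤ 1.0162 * (x / j) := fun j h2 h3 => by
        refine (ih (x / j) (hj j h2)).1 ?_
        have h3' : (j : ℝ) ≤ 500 := by exact_mod_cast h3
        have h2' : (2 : ℝ) ≤ j := by exact_mod_cast h2
        rw [le_div_iff₀ (by linarith)]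
        nlinarith
      have h2 : Chebyshev.psi (x / (100001 : ℕ)) ≤ 1.04 * (x / (100001 : ℕ)) :=
        (ih _ (hj 100001 (by norm_num))).2 (by positivity)
      have u := psi_up2 hptU x h h1 h2
      have l := psi_lo2 hptL x h h1 h2
      exact ⟨fun _ => ⟨l, u⟩, fun _ => by linarith⟩
  have big : ∀ x : ℝ, ∃ n : ℕ, x ≤ 1000000 * 2 ^ n := fun x => by
    obtain ⟨n, hn⟩ := pow_unbounded_of_one_lt (x / 1000000) (by norm_num : (1 : ℝ) < 2)
    exact ⟨n, by rw [div_lt_iff₀ (by norm_num)] at hn; linarith⟩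
  exact ⟨fun x hx => by obtain ⟨n, hn⟩ := big x; exact (key n x hn).1 hx,
    fun x hx => by obtain ⟨n, hn⟩ := big x; exact (key n x hn).2 hx⟩

end Vale.Agent.P021.H159
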