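import Vale.Agent.P021.H159.RowA2
import Vale.Agent.P021.H476.Point2

/-! P021, row (A), version 2: only the base range is left as a hypothesis. -/

namespace Vale.Agent.P021.H159

theorem rowA2_of_base2
    (hb : (∀ x : ℝ, 2000 ≤ x → x ≤ 1000000 →
      0.984 * x ≤ Chebyshev.psi x ∧ Chebyshev.psi x ≤ 1.0162 * x) ∧
      ∀ x : ℝ, 0 ≤ x → x ≤ 1000000 → Chebyshev.psi x ≤ 1.04 * x) :
    (∀ x : ℝ, 2000 ≤ x → 0.984 * x ≤ Chebyshev.psi x ∧ Chebyshev.psi x ≤ 1.0162 * x) ∧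
      ∀ x : ℝ, 0 ≤ x → Chebyshev.psi x ≤ 1.04 * x :=
  rowA2_of_base H476.up_point2 H476.lo_point2 hb.1 hb.2

end Vale.Agent.P021.H159
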