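import Vale.Agent.P021.MathlibUsed

/-! P021, row (A): Chebyshev–Sylvester steps from integer lists. -/

namespace Vale.Agent.P021.H159

open Finset ArithmeticFunction Chebyshev

/-- `∑ a_j ⌊y/j⌋`. -/
def evA (a : List (ℕ × ℤ)) (y : ℕ) : ℤ := (a.map fun p => p.2 * ((y / p.1 : ℕ) : ℤ)).sum

/-- `∑_{k ≤ y} b_k`. -/
def evB (b : List (ℕ × ℤ)) (y : ℕ) : ℤ := (b.map fun p => if p.1 ≤ y then p.2 else 0).sum

/-- `log n! = ∑_{m ≤ n} Λ(m) ⌊n/m⌋`. -/
theorem log_fac (n : ℕ) :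
    Real.log (n.factorial : ℝ) = ∑ m ∈ Ioc 0 n, vonMangoldt m * ((n / m : ℕ) : ℝ) := by
  induction n with
  | zero => simp
  | succ n ih =>
    have h1 : Real.log ((n + 1).factorial : ℝ) =
        Real.log ((n + 1 : ℕ) : ℝ) + Real.log (n.factorial : ℝ) := by
      rw [Nat.factorial_succ, Nat.cast_mul, Real.log_mul (by positivity) (by positivity)]
    have h2 : ∑ m ∈ Ioc 0 (n + 1), vonMangoldt m * (((n + 1) / m : ℕ) : ℝ) =
        ∑ m ∈ Ioc 0 (n + 1), vonMangoldt m * ((n / m : ℕ) : ℝ) +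
        ∑ m ∈ Ioc 0 (n + 1), if m ∣ n + 1 then vonMangoldt m else 0 := by
      rw [← Finset.sum_add_distrib]
      refine Finset.sum_congr rfl fun m _ => ?_
      rw [Nat.succ_div]
      split_ifs <;> push_cast <;> ring
    have h3 : ∑ m ∈ Ioc 0 (n + 1), vonMangoldt m * ((n / m : ℕ) : ℝ) =
        ∑ m ∈ Ioc 0 n, vonMangoldt m * ((n / m : ℕ) : ℝ) := by
      rw [← Finset.insert_Ioc_right_eq_Ioc_add_one (Nat.zero_le n),
        Finset.sum_insert (by simp)]
      rw [Nat.div_eq_of_lt (Nat.lt_add_one n)]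
      simp
    have h4 : (∑ m ∈ Ioc 0 (n + 1), if m ∣ n + 1 then vonMangoldt m else 0) =
        Real.log ((n + 1 : ℕ) : ℝ) := by
      rw [← vonMangoldt_sum (n := n + 1), ← Finset.sum_filter]
      refine Finset.sum_congr ?_ fun _ _ => rfl
      ext m
      simp only [mem_filter, mem_Ioc, Nat.mem_divisors]
      constructor
      · rintro ⟨_, h⟩
        exact ⟨h, by omega⟩
      · rintro ⟨h, _⟩
        exact ⟨⟨Nat.pos_of_dvd_of_pos h (by omega), Nat.le_of_dvd (by omega) h⟩, h⟩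
    rw [h1, ih, h2, h3, h4]
    ring

theorem log_fac_div (n j : ℕ) :
    Real.log ((n / j).factorial : ℝ) =
      ∑ m ∈ Ioc 0 n, vonMangoldt m * ((n / m / j : ℕ) : ℝ) := by
  rw [log_fac]
  have hsub : Ioc 0 (n / j) ⊆ Ioc 0 n := by
    intro m hm
    simp only [mem_Ioc] at hm ⊢
    exact ⟨hm.1, hm.2.trans (Nat.div_le_self _ _)⟩
  rw [← Finset.sum_subset hsub]
  · refine Finset.sum_congr rfl fun m _ => ?_
    rw [Nat.div_div_eq_div_mul, Nat.div_div_eq_div_mul, Nat.mul_comm j m]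
  · intro m _ hm
    simp only [mem_Ioc, not_and, not_le] at hm
    rcases Nat.eq_zero_or_pos m with h0 | h0
    · subst h0; simp
    · have := hm h0
      rw [Nat.div_div_eq_div_mul, Nat.mul_comm m j, ← Nat.div_div_eq_div_mul,
        Nat.div_eq_of_lt this]
      simp

theorem psi_div (n k : ℕ) (hk : 0 < k) :
    psi ((n / k : ℕ) : ℝ) = ∑ m ∈ Ioc 0 n, vonMangoldt m * (if k ≤ n / m then 1 else 0) := by
  have h0 : psi ((n / k : ℕ) : ℝ) = ∑ m ∈ Ioc 0 (n / k), vonMangoldt m := by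
    simp [psi]
  rw [h0]
  have hsub : Ioc 0 (n / k) ⊆ Ioc 0 n := by
    intro m hm
    simp only [mem_Ioc] at hm ⊢
    exact ⟨hm.1, hm.2.trans (Nat.div_le_self _ _)⟩
  rw [← Finset.sum_subset hsub]
  · refine Finset.sum_congr rfl fun m hm => ?_
    simp only [mem_Ioc] at hm
    have h1 : k ≤ n / m := by
      rw [Nat.le_div_iff_mul_le hm.1, mul_comm, ← Nat.le_div_iff_mul_le hk]
      exact hm.2
    simp [h1]
  · intro m hm' hm
    simp only [mem_Ioc, not_and, not_le] at hm hm'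
    have h1 : ¬ k ≤ n / m := by
      rw [Nat.le_div_iff_mul_le hm'.1, mul_comm, ← Nat.le_div_iff_mul_le hk]
      have := hm hm'.1
      omega
    simp [h1]

theorem sumA (a : List (ℕ × ℤ)) (n : ℕ) :
    (a.map fun p => (p.2 : ℝ) * Real.log ((n / p.1).factorial : ℝ)).sum =
      ∑ m ∈ Ioc 0 n, vonMangoldt m * (evA a (n / m) : ℝ) := by
  induction a with
  | nil => simp [evA]
  | cons p a ih =>
    have h : ∀ y, evA (p :: a) y = p.2 * ((y / p.1 : ℕ) : ℤ) + evA a y := fun y => by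
      simp [evA]
    simp only [List.map_cons, List.sum_cons, ih, log_fac_div n p.1, Finset.mul_sum]
    rw [← Finset.sum_add_distrib]
    refine Finset.sum_congr rfl fun m _ => ?_
    rw [h, Int.cast_add, Int.cast_mul, Int.cast_natCast]
    ring

theorem sumB (b : List (ℕ × ℤ)) (hb : ∀ p ∈ b, 0 < p.1) (n : ℕ) :
    (b.map fun p => (p.2 : ℝ) * psi ((n / p.1 : ℕ) : ℝ)).sum =
      ∑ m ∈ Ioc 0 n, vonMangoldt m * (evB b (n / m) : ℝ) := by
  induction b with
  | nil => simp [evB]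
  | cons p b ih =>
    have h : ∀ y, evB (p :: b) y = (if p.1 ≤ y then p.2 else 0) + evB b y := fun y => by
      simp [evB]
    have hb' : ∀ q ∈ b, 0 < q.1 := fun q hq => hb q (List.mem_cons_of_mem _ hq)
    simp only [List.map_cons, List.sum_cons, ih hb',
      psi_div n p.1 (hb p (List.mem_cons_self)), Finset.mul_sum]
    rw [← Finset.sum_add_distrib]
    refine Finset.sum_congr rfl fun m _ => ?_
    rw [h]
    split_ifs <;> push_cast <;> ring

/-- Upper step. -/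
theorem step_le (D : ℤ) (a b : List (ℕ × ℤ)) (hb : ∀ p ∈ b, 0 < p.1)
    (h : ∀ y : ℕ, 1 ≤ y → D ≤ evA a y + evB b y) (n : ℕ) :
    (D : ℝ) * psi n ≤ (a.map fun p => (p.2 : ℝ) * Real.log ((n / p.1).factorial : ℝ)).sum +
      (b.map fun p => (p.2 : ℝ) * psi ((n / p.1 : ℕ) : ℝ)).sum := by
  rw [sumA, sumB b hb, ← Finset.sum_add_distrib]
  have h0 : psi (n : ℝ) = ∑ m ∈ Ioc 0 n, vonMangoldt m := by simp [psi]
  rw [h0, Finset.mul_sum]
  refine Finset.sum_le_sum fun m hm => ?_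
  simp only [mem_Ioc] at hm
  have h1 : 1 ≤ n / m := (Nat.one_le_div_iff hm.1).2 hm.2
  have h2 : (D : ℝ) ≤ (evA a (n / m) : ℝ) + (evB b (n / m) : ℝ) := by exact_mod_cast h _ h1
  have h3 : 0 ≤ vonMangoldt m := vonMangoldt_nonneg
  nlinarith

/-- Lower step. -/
theorem le_step (D : ℤ) (a b : List (ℕ × ℤ)) (hb : ∀ p ∈ b, 0 < p.1)
    (h : ∀ y : ℕ, 1 ≤ y → evA a y + evB b y ≤ D) (n : ℕ) :
    (a.map fun p => (p.2 : ℝ) * Real.log ((n / p.1).factorial : ℝ)).sum +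
      (b.map fun p => (p.2 : ℝ) * psi ((n / p.1 : ℕ) : ℝ)).sum ≤ (D : ℝ) * psi n := by
  rw [sumA, sumB b hb, ← Finset.sum_add_distrib]
  have h0 : psi (n : ℝ) = ∑ m ∈ Ioc 0 n, vonMangoldt m := by simp [psi]
  rw [h0, Finset.mul_sum]
  refine Finset.sum_le_sum fun m hm => ?_
  simp only [mem_Ioc] at hm
  have h1 : 1 ≤ n / m := (Nat.one_le_div_iff hm.1).2 hm.2
  have h2 : (evA a (n / m) : ℝ) + (evB b (n / m) : ℝ) ≤ (D : ℝ) := by exact_mod_cast h _ h1
  have h3 : 0 ≤ vonMangoldt m := vonMangoldt_nonneg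
  nlinarith

end Vale.Agent.P021.H159
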